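import Vale.Agent.P030.H352.Fam
import Vale.Agent.P030.H676.HarmB
import Vale.Agent.P030.H787.PGVec

/-!
# P030, route H: a good family of members and a frame at `c3` give `StAF`

`FrameAt G R` : the frame at `c3` with the radii `R` (205's theorem).
`Fam.Reads` : every group of `c0, c1, c2` is read off from a disc member, up to groups which are
killed earlier.
-/

open Finset Matrix PowerSeries

namespace Vale.Agent.P030.H552

open Vale.Agent.P030.T Vale.Agent.P030.AR Vale.Agent.P030.H352 Vale.Agent.P030.H676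
open Vale.Agent.P030.H462

/-- the frame at `c3` with the radii `R` -/
def FrameAt (G : Matrix (Fin 8) (Fin 8) ℂ⟦X⟧) (R : Fin 8 → ℝ) : Prop :=
  ∃ C1 : ℝ, 1 ≤ C1 ∧ ∀ D : ℕ, 0 < D → ∃ W : Matrix (Fin D × Fin 8) (Fin D × Fin 8) ℂ,
    Real.exp (-((D : ℝ) * ((D : ℝ) - 1) / 2) * (∑ i, Real.log (R i))
      + 4 * (D : ℝ) * ((D : ℝ) - 1) * Real.log 2 - C1 * (D : ℝ)) ≤ ‖W.det‖ ∧
    ∀ u : Fin D × Fin 8 → ℂ, (∀ r, ‖u r‖ ≤ 1) →
      (∀ κ y, ‖y‖ = R κ → ‖sec D (u ᵥ* W) (outv G κ y) y‖ ≤ C1 * (D : ℝ) ^ 2) ∧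
      (∀ g : Gp, g.cusp = 3 → ∀ k : ℕ, k < D →
        ‖T.val D (Gc / 2) (u ᵥ* W) (g, k)‖ ≤ Real.exp (-((D : ℝ) - 1 - k) * Real.log (R (ixr g)))) ∧
      (∀ g : Gp, ¬ g.cusp = 3 → ∀ k : ℕ,
        ‖T.val D (Gc / 2) (u ᵥ* W) (g, k)‖ ≤ Real.exp (C1 * ((D : ℝ) + k)))

/-- every group of `c0, c1, c2` is read off from a disc member -/
def Reads {A : Type} (F : Fam A) (ht : Gp → ℕ) (rk : Gp → ℕ) (κ : Gp → ℝ) : Prop :=
  ∀ g : Gp, ¬ g.cusp = 3 → 0 < ht g → ∃ (a : A) (y0 : ℂ), F.cu a ≠ 3 ∧ y0 ∈ F.K a ∧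
    tl (F.cu a) y0 = 0 ∧ F.hh a = ht g ∧ F.cf a g = 1 ∧ F.reg a y0 ≤ κ g ∧
    ∀ g', F.cf a g' ≠ 0 → g' ≠ g → ht g < ht g' ∨ (ht g = ht g' ∧ rk g' < rk g)

/-- **route H** : from a good family to `StAF` -/
theorem stAF_of_fam {P : Par} (c0 : ℕ) (hcard : ∑ g : Gp, P.ht g = 8 * P.D0)
    (hlt : ∀ g : Gp, g.cusp = 3 → P.ht g < P.D0)
    {A : Type} [Fintype A] (F : Fam A) {G : Matrix (Fin 8) (Fin 8) ℂ⟦X⟧} {R : Fin 8 → ℝ}
    {lam δ C : ℝ} (hδ : 0 < δ) (hF : F.Good P.ht G R lam δ C) (hR : FrameAt G R)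
    (rk : Gp → ℕ) (κ : Gp → ℝ) (hread : Reads F P.ht rk κ) :
    StAF P c0 (4 * (P.D0 : ℝ) ^ 2 * Real.log 2
      - (∑ g ∈ univ.filter (fun g : Gp => ¬ g.cusp = 3), P.ht g * (κ g - lam)
          + ∑ i, oo P i ^ 2 * Real.log (R i)) / 2) := by
  classical
  have hPG : ∀ g j, PG (Rat.castHom ℂ) (tup0 g j) ∧ PG (Rat.castHom ℂ) (tup1 g j) :=
    fun g j => ⟨H787.pg_tup0 g j, H787.pg_tup1 g j⟩
  refine stAF_of_harm hcard rk κ R lam fun ε hε => ?_
  clear hcard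
  obtain ⟨C1, hC1, hW⟩ := hR
  -- the time from which on the margin beats the constant
  obtain ⟨t0, ht0, hexp⟩ : ∃ t0 : ℝ, 0 < t0 ∧ ∀ τ, t0 ≤ τ → C * Real.exp (-(τ * δ)) < 1 := by
    refine ⟨(|C| + 1) / δ, by positivity, fun τ hτ => ?_⟩
    have h1 : |C| + 1 ≤ τ * δ := by rwa [div_le_iff₀ hδ] at hτ
    have h2 : |C| + 2 ≤ Real.exp (τ * δ) := by
      have := Real.add_one_le_exp (τ * δ); linarith
    rw [Real.exp_neg, ← div_eq_mul_inv, div_lt_one (Real.exp_pos _)]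
    have := le_abs_self C
    linarith
  -- constants
  have hD0 : (P.D0 : ℝ) ≤ P.D0 + 1 := by linarith
  obtain ⟨s0, hs0⟩ := exists_nat_ge (c0 : ℝ)
  have hb0 : (0 : ℝ) ≤ ∑ g : Gp, (P.ht g : ℝ) := Finset.sum_nonneg fun _ _ => Nat.cast_nonneg _
  refine ⟨C1 * ((P.D0 : ℝ) + 1 + ∑ g : Gp, (P.ht g : ℝ) + c0), t0, max s0 1, ?_, ht0.le,
    fun s hs => ?_⟩
  · have h1 : (0 : ℝ) ≤ (P.D0 : ℝ) + ∑ g : Gp, (P.ht g : ℝ) + c0 := by positivity
    nlinarith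
  have hs1 : (1 : ℝ) ≤ s := by exact_mod_cast (le_max_right _ _).trans hs
  have hsc : (c0 : ℝ) ≤ s := hs0.trans (by exact_mod_cast (le_max_left _ _).trans hs)
  -- D0 is positive
  have hDpos : 0 < P.D0 := by
    have := hlt .x2 (by rfl)
    omega
  have hDs : 0 < P.D0 * s := by
    have : 0 < s := by exact_mod_cast lt_of_lt_of_le one_pos hs1
    positivity
  obtain ⟨W, hdet, hu⟩ := hW (P.D0 * s) hDs
  set CC : ℝ := C1 * ((P.D0 : ℝ) + 1 + ∑ g : Gp, (P.ht g : ℝ) + c0) with hCC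
  have hcast : ((P.D0 * s : ℕ) : ℝ) = (P.D0 : ℝ) * s := by push_cast; ring
  have hC1' : C1 ≤ CC := by
    have h1 : (0 : ℝ) ≤ (P.D0 : ℝ) + ∑ g : Gp, (P.ht g : ℝ) + c0 := by positivity
    nlinarith
  refine ⟨W, ?_, ?_, ?_, ?_⟩
  · refine le_trans (Real.exp_le_exp.2 ?_) hdet
    have h1 : C1 * ((P.D0 * s : ℕ) : ℝ) ≤ CC * ((P.D0 * s : ℕ) : ℝ) :=
      mul_le_mul_of_nonneg_right hC1' (Nat.cast_nonneg _)
    linarith
  · intro u hun g k hg hk
    refine (hu u hun).2.1 g hg k ?_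
    have h1 := hlt g hg
    have h2 : c0 ≤ s := by exact_mod_cast hsc
    calc k < P.ht g * s + c0 := hk
      _ ≤ P.ht g * s + s := by omega
      _ = (P.ht g + 1) * s := by ring
      _ ≤ P.D0 * s := Nat.mul_le_mul_right _ h1
  · intro u hun g k hg hk
    refine ((hu u hun).2.2 g hg k).trans (Real.exp_le_exp.2 ?_)
    have hk' : (k : ℝ) ≤ P.ht g * s + c0 := by exact_mod_cast hk.le
    have hg' : (P.ht g : ℝ) ≤ ∑ g : Gp, (P.ht g : ℝ) :=
      Finset.single_le_sum (f := fun g : Gp => (P.ht g : ℝ)) (fun _ _ => Nat.cast_nonneg _)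
        (Finset.mem_univ g)
    rw [hcast, hCC]
    have h2 : (c0 : ℝ) ≤ c0 * s := by
      have : (0 : ℝ) ≤ c0 := Nat.cast_nonneg _
      nlinarith
    have h3 : (P.ht g : ℝ) * s ≤ (∑ g : Gp, (P.ht g : ℝ)) * s :=
      mul_le_mul_of_nonneg_right hg' (by linarith)
    have hC0 : (0 : ℝ) ≤ C1 := by linarith
    have h4 : (P.D0 : ℝ) * s + k ≤ ((P.D0 : ℝ) + 1 + ∑ g : Gp, (P.ht g : ℝ) + c0) * s := by
      nlinarith
    calc C1 * ((P.D0 : ℝ) * s + k)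
        ≤ C1 * (((P.D0 : ℝ) + 1 + ∑ g : Gp, (P.ht g : ℝ) + c0) * s) :=
          mul_le_mul_of_nonneg_left h4 hC0
      _ = _ := by ring
  · intro u hun g k hg hk hks hk3 hkill
    obtain ⟨hrow, -, -⟩ := hu u hun
    have hks' : 0 < P.ht g := by
      by_contra h0
      have : P.ht g = 0 := by omega
      rw [this] at hks; omega
    have hhg : (0 : ℝ) < P.ht g := by exact_mod_cast hks'
    obtain ⟨a, y0, ha, hy0, ht, hh, hcf, hreg, hoth⟩ := hread g hg hks'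
    set τ : ℝ := (k : ℝ) / P.ht g with hτ
    have hτ0 : t0 ≤ τ := by rw [hτ, le_div_iff₀ hhg]; exact hk
    have hτp : 0 ≤ τ := ht0.le.trans hτ0
    have hkpos : 0 < k := by
      have h1 : 0 < τ := lt_of_lt_of_le ht0 hτ0
      rw [hτ] at h1
      have h2 : (0 : ℝ) < k := by
        by_contra h3
        have h4 : (k : ℝ) ≤ 0 := not_lt.1 h3
        have h5 : (k : ℝ) / P.ht g ≤ 0 := div_nonpos_of_nonpos_of_nonneg h4 hhg.le
        linarith
      exact_mod_cast h2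
    have hbound := F.bound hF hPG (D := P.D0 * s) (v := u ᵥ* W)
      (B0 := C1 * ((P.D0 * s : ℕ) : ℝ) ^ 2) (τ := τ) (by positivity) hτp (hexp τ hτ0) hrow
      (by
        intro g' hg' k' hk'
        refine hkill g' k' hg' (Or.inl ?_)
        rw [hτ, div_mul_eq_mul_div, lt_div_iff₀ hhg] at hk'
        exact_mod_cast hk') a ha y0 hy0 ht k (by
        rw [hh, hτ, div_mul_cancel₀ _ hhg.ne'])
    -- only the group `g` survives
    have hsum : ∑ g', F.cf a g' * T.val (P.D0 * s) (Gc / 2) (u ᵥ* W) (g', k) =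
        T.val (P.D0 * s) (Gc / 2) (u ᵥ* W) (g, k) := by
      rw [Finset.sum_eq_single g]
      · rw [hcf, one_mul]
      · intro g' _ hne
        by_cases hc : F.cf a g' = 0
        · rw [hc, zero_mul]
        · have hg' : ¬ g'.cusp = 3 := by
            rw [(hF.grp a ha g' hc).1]; exact ha
          rw [hkill g' k hg' ?_, mul_zero]
          rcases hoth g' hc hne with h1 | ⟨h1, h2⟩
          · exact Or.inl (Nat.mul_lt_mul_of_pos_left h1 hkpos)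
          · exact Or.inr ⟨by rw [h1], h2, by omega⟩
      · intro h; exact absurd (Finset.mem_univ g) h
    rw [hsum] at hbound
    refine hbound.trans ?_
    have h1 : C1 * ((P.D0 * s : ℕ) : ℝ) ^ 2 ≤ (CC * s) ^ 2 := by
      rw [hcast, mul_pow, mul_pow, ← mul_assoc]
      refine mul_le_mul_of_nonneg_right ?_ (by positivity)
      have h2 : C1 * ((P.D0 : ℝ) + 1) ≤ CC := by
        rw [hCC]
        refine mul_le_mul_of_nonneg_left ?_ (by linarith)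
        have : (0 : ℝ) ≤ c0 := Nat.cast_nonneg _
        linarith
      have h3 : (0 : ℝ) ≤ P.D0 := Nat.cast_nonneg _
      calc C1 * (P.D0 : ℝ) ^ 2 ≤ C1 ^ 2 * ((P.D0 : ℝ) + 1) ^ 2 := by
            have h4 : C1 ≤ C1 ^ 2 := by nlinarith
            have h5 : (P.D0 : ℝ) ^ 2 ≤ ((P.D0 : ℝ) + 1) ^ 2 := by nlinarith
            exact mul_le_mul h4 h5 (by positivity) (by positivity)
        _ = (C1 * ((P.D0 : ℝ) + 1)) ^ 2 := by ring
        _ ≤ CC ^ 2 := pow_le_pow_left₀ (by positivity) h2 2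
    rw [mul_assoc, ← Real.exp_add]
    refine mul_le_mul h1 (Real.exp_le_exp.2 ?_) (Real.exp_nonneg _) (by positivity)
    have h2 : τ * F.reg a y0 ≤ τ * κ g := mul_le_mul_of_nonneg_left hreg hτp
    have h3 : 0 ≤ τ * ε := mul_nonneg hτp hε.le
    have h4 : (k : ℝ) / P.ht g * (κ g - lam + ε) = τ * κ g - τ * lam + τ * ε := by
      rw [hτ]; ring
    rw [h4]
    linarith

end Vale.Agent.P030.H552
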