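import Vale.Agent.P030.AR.Flat

/-!
# P030, route H, data side (3): continuity of the entries of `Pm`, `Qm`
-/

open Set Topology

namespace Vale.Agent.P030.H552

open Vale.Agent.P030.AR

set_option linter.unusedSimpArgs false
set_option linter.unreachableTactic false
set_option linter.unusedTactic false

section
variable {T t : ℂ → ℂ} {Z : Set ℂ}

theorem contP0 (hT : ContinuousOn T Z) (_ht : ContinuousOn t Z) (i j : Fin 8) :
    ContinuousOn (fun y => Pm 0 (T y) (t y) i j) Z := by
  fin_cases i <;> fin_cases j <;> simp [Pm] <;> fun_prop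

theorem contP2 (hT : ContinuousOn T Z) (_ht : ContinuousOn t Z) (i j : Fin 8) :
    ContinuousOn (fun y => Pm 2 (T y) (t y) i j) Z := by
  fin_cases i <;> fin_cases j <;> simp [Pm] <;> fun_prop

theorem contP3 (hT : ContinuousOn T Z) (ht : ContinuousOn t Z) (i j : Fin 8) :
    ContinuousOn (fun y => Pm 3 (T y) (t y) i j) Z := by
  fin_cases i <;> fin_cases j <;> simp [Pm] <;> fun_prop

theorem contP1 (hT : ContinuousOn T Z) (ht : ContinuousOn t Z) (h0 : ∀ y ∈ Z, t y ≠ 0)
    (i j : Fin 8) : ContinuousOn (fun y => Pm 1 (T y) (t y) i j) Z := by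
  have hi : ContinuousOn (fun y => (t y)⁻¹) Z := ht.inv₀ h0
  fin_cases i <;> fin_cases j <;> simp [Pm] <;> fun_prop

theorem contQ0 (hT : ContinuousOn T Z) (_ht : ContinuousOn t Z) (i j : Fin 8) :
    ContinuousOn (fun y => Qm 0 (T y) (t y) i j) Z := by
  fin_cases i <;> fin_cases j <;> simp [Qm] <;> fun_prop

theorem contQ1 (hT : ContinuousOn T Z) (ht : ContinuousOn t Z) (i j : Fin 8) :
    ContinuousOn (fun y => Qm 1 (T y) (t y) i j) Z := by
  simp only [Qm, div_eq_mul_inv]
  fin_cases i <;> fin_cases j <;> simp <;> fun_prop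

theorem contQ2 (hT : ContinuousOn T Z) (_ht : ContinuousOn t Z) (i j : Fin 8) :
    ContinuousOn (fun y => Qm 2 (T y) (t y) i j) Z := by
  simp only [Qm, div_eq_mul_inv]
  fin_cases i <;> fin_cases j <;> simp <;> fun_prop

theorem contQ3 (hT : ContinuousOn T Z) (ht : ContinuousOn t Z) (h0 : ∀ y ∈ Z, t y ≠ 0)
    (i j : Fin 8) : ContinuousOn (fun y => Qm 3 (T y) (t y) i j) Z := by
  have hi : ContinuousOn (fun y => (t y)⁻¹) Z := ht.inv₀ h0
  simp only [Qm, div_eq_mul_inv, mul_inv]
  fin_cases i <;> fin_cases j <;> simp <;> fun_prop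

theorem contP (hT : ContinuousOn T Z) (ht : ContinuousOn t Z) (h0 : ∀ y ∈ Z, t y ≠ 0)
    (c : Fin 4) (i j : Fin 8) : ContinuousOn (fun y => Pm c (T y) (t y) i j) Z := by
  fin_cases c
  · exact contP0 hT ht i j
  · exact contP1 hT ht h0 i j
  · exact contP2 hT ht i j
  · exact contP3 hT ht i j

theorem contQ (hT : ContinuousOn T Z) (ht : ContinuousOn t Z) (h0 : ∀ y ∈ Z, t y ≠ 0)
    (c : Fin 4) (i j : Fin 8) : ContinuousOn (fun y => Qm c (T y) (t y) i j) Z := by
  fin_cases c
  · exact contQ0 hT ht i j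
  · exact contQ1 hT ht i j
  · exact contQ2 hT ht i j
  · exact contQ3 hT ht h0 i j

end

end Vale.Agent.P030.H552
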