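import Vale.Agent.P030.H552.GfB
import Vale.Agent.P030.H552.PQ
import Vale.Agent.P030.H552.TopH

/-!
# P030, route H, data side (4): from cells and frames to a good family

`CD α β` : `α` = the up vectors (a coordinate row `b a` in the basis `e,a,c,d,g,h,A0,A3`, a closed
domain `K a`, a potential `psi a`), `β` = the frames used for the relations (eight up vectors with
an invertible coordinate matrix), and for each cusp eight vectors (rows of the real matrix `M c`
over the log-free frame) with domains `Kc c m` and potentials.  The low vectors are the mirror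
images.  `CD.Ok` = the list of obligations; the edge rules are only needed for the up vectors and
for the points `im y ≤ 0` of the cusp vectors.
-/

open Complex Set Filter Topology Matrix PowerSeries

namespace Vale.Agent.P030.H552

open Vale.Agent.P030.T Vale.Agent.P030.H462 Vale.Agent.P030.AR
open Vale.Agent.P030.H181 (GM GY DY analyticAt_GM conj_mem_DY)
open Vale.Agent.P030.H580 (tY TY RY diff_TY diff_tY)
open Vale.Agent.P030.H352 (tl yt outv Fam)
open Vale.Agent.P030.H742 (LocRe)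

noncomputable section

/-- the data -/
structure CD (α β : Type) where
  /-- coordinate rows of the up vectors -/
  b : α → Fin 8 → ℂ
  /-- potentials of the up vectors -/
  psi : α → ℂ → ℝ
  /-- closed domains -/
  K : α → Set ℂ
  /-- interiors -/
  U : α → Set ℂ
  /-- frames -/
  fr : β → Fin 8 → α
  /-- inverse frame matrices -/
  IF : β → Matrix (Fin 8) (Fin 8) ℂ
  /-- rows of the cusp vectors over the log-free frame -/
  M : Fin 4 → Matrix (Fin 8) (Fin 8) ℂ
  /-- inverse matrices -/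
  IM : Fin 4 → Matrix (Fin 8) (Fin 8) ℂ
  /-- domains of the cusp vectors -/
  Kc : Fin 4 → Fin 8 → Set ℂ
  /-- interiors -/
  Uc : Fin 4 → Fin 8 → Set ℂ
  /-- `true` : a disc member (combination of groups) -/
  fl : Fin 4 → Fin 8 → Bool
  /-- heights -/
  hc : Fin 4 → Fin 8 → ℕ
  /-- weights over the groups -/
  wt : Fin 4 → Fin 8 → Gp → ℂ
  /-- regular parts of the potentials -/
  reg : Fin 4 → Fin 8 → ℂ → ℝ
  /-- compact sets on which the cusp relations are used -/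
  Z : Fin 4 → Set ℂ

variable {α β : Type}

/-- the index type of the members: up, low, cusp -/
abbrev Ix (α : Type) := α ⊕ (α ⊕ (Fin 4 × Fin 8))

namespace CD

/-- the frame matrix -/
def F0 (D : CD α β) (B : β) : Matrix (Fin 8) (Fin 8) ℂ := of fun i => D.b (D.fr B i)

/-- potential of a cusp vector -/
def psic (D : CD α β) (c : Fin 4) (m : Fin 8) (y : ℂ) : ℝ :=
  D.hc c m * Real.log ‖if D.fl c m then tl c y else 1‖ + D.reg c m y

/-- the family -/
def toFam (D : CD α β) (X : Fin 8 → ℂ → Fin 8 → ℂ) : Fam (Ix α) where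
  K := Sum.elim D.K (Sum.elim (fun a => {y | (starRingEnd ℂ) y ∈ D.K a}) fun p => D.Kc p.1 p.2)
  U := Sum.elim D.U (Sum.elim (fun a => {y | (starRingEnd ℂ) y ∈ D.U a}) fun p => D.Uc p.1 p.2)
  e := Sum.elim (fun a => eU X (D.b a)) (Sum.elim (fun a => eL X (D.b a))
    fun p => GM p.1 (D.M p.1 p.2))
  cu := Sum.elim (fun _ => 3) (Sum.elim (fun _ => 3) fun p => if D.fl p.1 p.2 then p.1 else 3)
  cf := Sum.elim (fun _ _ => 0) (Sum.elim (fun _ _ => 0) fun p => D.wt p.1 p.2)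
  hh := Sum.elim (fun _ => 0) (Sum.elim (fun _ => 0) fun p => D.hc p.1 p.2)
  reg := Sum.elim D.psi (Sum.elim (fun a y => D.psi a ((starRingEnd ℂ) y))
    fun p => D.reg p.1 p.2)

/-- swap up and low -/
def sw : Ix α → Ix α
  | .inl a => .inr (.inl a)
  | .inr (.inl a) => .inl a
  | .inr (.inr p) => .inr (.inr p)

theorem sw_sw (x : Ix α) : sw (sw x) = x := by
  rcases x with a | a | p <;> rfl

def swE : Ix α ≃ Ix α := ⟨sw, sw, sw_sw, sw_sw⟩

/-- edge rule of an up vector in the frame `B` -/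
def E0 (D : CD α β) (δ : ℝ) (B : β) (a : α) (y : ℂ) : Prop :=
  ∀ i, (D.b a ᵥ* D.IF B) i ≠ 0 → y ∈ D.K (D.fr B i) ∧ D.psi (D.fr B i) y + δ ≤ D.psi a y

/-- edge rule of an up vector through the interval below, in the low frame `B` -/
def E1 (D : CD α β) (δ : ℝ) (B : β) (a : α) (y : ℂ) : Prop :=
  0 ≤ y.im ∧ NC y.re ∧ ∀ i, (D.b a ᵥ* cj (Rf (qy y.re)) ᵥ* cj (D.IF B)) i ≠ 0 →
    (starRingEnd ℂ) y ∈ D.K (D.fr B i) ∧
      D.psi (D.fr B i) ((starRingEnd ℂ) y) + δ ≤ D.psi a y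

/-- edge rule of an up vector at the cusp `c` -/
def E2 (D : CD α β) (δ : ℝ) (c : Fin 4) (a : α) (y : ℂ) : Prop :=
  y ∈ D.Z c ∧ ∀ m, (D.b a ᵥ* Pm c (TY c y) (tY c y) ᵥ* D.IM c) m ≠ 0 →
    y ∈ D.Kc c m ∧ D.psic c m y + δ ≤ D.psi a y

/-- edge rule of a cusp vector in the up frame `B` -/
def E3 (D : CD α β) (δ : ℝ) (B : β) (c : Fin 4) (m : Fin 8) (y : ℂ) : Prop :=
  y ∈ D.Z c ∧ ∀ i, (D.M c m ᵥ* Qm c (TY c y) (tY c y) ᵥ* D.IF B) i ≠ 0 →
    y ∈ D.K (D.fr B i) ∧ D.psi (D.fr B i) y + δ ≤ D.psic c m y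

/-- the obligations -/
structure Ok (D : CD α β) (ht : Gp → ℕ) (G : Matrix (Fin 8) (Fin 8) ℂ⟦X⟧) (R : Fin 8 → ℝ)
    (lam δ : ℝ) : Prop where
  hK : ∀ a, IsCompact (D.K a)
  hU : ∀ a, IsOpen (D.U a)
  hUK : ∀ a, D.U a ⊆ D.K a
  hOm : ∀ a, D.K a ⊆ Om
  hpc : ∀ a, ContinuousOn (D.psi a) (D.K a)
  hpa : ∀ a, ∀ y ∈ D.U a, LocRe (D.psi a) y
  hIF : ∀ B, D.IF B * D.F0 B = 1
  hIM : ∀ c, D.IM c * D.M c = 1
  hMr : ∀ c, cj (D.M c) = D.M c
  hKc : ∀ c m, IsCompact (D.Kc c m)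
  hUc : ∀ c m, IsOpen (D.Uc c m)
  hUKc : ∀ c m, D.Uc c m ⊆ D.Kc c m
  hKs : ∀ c m y, y ∈ D.Kc c m → (starRingEnd ℂ) y ∈ D.Kc c m
  hUs : ∀ c m y, y ∈ D.Uc c m → (starRingEnd ℂ) y ∈ D.Uc c m
  hDY : ∀ c m, D.Kc c m ⊆ DY c
  hrc : ∀ c m, ContinuousOn (D.reg c m) (D.Kc c m)
  hra : ∀ c m, ∀ y ∈ D.Uc c m, LocRe (D.reg c m) y
  hrs : ∀ c m y, D.reg c m ((starRingEnd ℂ) y) = D.reg c m y
  fl3 : ∀ m, D.fl 3 m = false
  flw : ∀ c m, D.fl c m = true → ∀ y ∈ D.Kc c m,
    GM c (D.M c m) y = ∑ g, D.wt c m g • tupC g (tl c y)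
  flg : ∀ c m, D.fl c m = true → ∀ g, D.wt c m g ≠ 0 → g.cusp = c ∧ D.hc c m ≤ ht g
  hZ : ∀ c, IsCompact (D.Z c)
  hZR : ∀ c, D.Z c ⊆ RY c
  hZ0 : ∀ c, ∀ y ∈ D.Z c, tY c y ≠ 0
  edge_up : ∀ a, ∀ y ∈ D.K a, y ∉ D.U a →
    (∃ B, D.E0 δ B a y) ∨ (∃ B, D.E1 δ B a y) ∨ ∃ c, D.E2 δ c a y
  edge_c : ∀ c m, ∀ y ∈ D.Kc c m, y ∉ D.Uc c m → y.im ≤ 0 →
    (∃ B, D.E3 δ B c m y) ∨ (c = 3 ∧ ‖y‖ = R m ∧ lam ≤ D.psic c m y)
  hout : ∀ m y, ‖y‖ = R m → GM 3 (D.M 3 m) y = outv G m y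

variable {D : CD α β} {X V : Fin 8 → ℂ → Fin 8 → ℂ}
variable {ht : Gp → ℕ} {G : Matrix (Fin 8) (Fin 8) ℂ⟦X⟧} {R : Fin 8 → ℝ} {lam δ : ℝ}

/-! ### the mirror symmetry of the family -/

theorem e_sw (h : D.Ok ht G R lam δ) (x : Ix α) (y : ℂ) :
    (D.toFam X).e (sw x) ((starRingEnd ℂ) y) = cr ((D.toFam X).e x y) := by
  rcases x with a | a | p
  · change eL X (D.b a) ((starRingEnd ℂ) y) = cr (eU X (D.b a) y)
    funext j
    simp [eL, cr]
  · change eU X (D.b a) ((starRingEnd ℂ) y) = cr (eL X (D.b a) y)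
    funext j
    simp [eL, cr]
  · change GM p.1 (D.M p.1 p.2) ((starRingEnd ℂ) y) = cr (GM p.1 (D.M p.1 p.2) y)
    have hr : cr (D.M p.1 p.2) = D.M p.1 p.2 := by
      funext k
      exact congrFun (congrFun (h.hMr p.1) p.2) k
    have h1 := cr_GM p.1 hr ((starRingEnd ℂ) y)
    rw [Complex.conj_conj] at h1
    exact h1.symm

theorem K_sw (h : D.Ok ht G R lam δ) {x : Ix α} {y : ℂ} (hy : y ∈ (D.toFam X).K x) :
    (starRingEnd ℂ) y ∈ (D.toFam X).K (sw x) := by
  rcases x with a | a | p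
  · change (starRingEnd ℂ) ((starRingEnd ℂ) y) ∈ D.K a
    rw [Complex.conj_conj]; exact hy
  · exact hy
  · exact h.hKs _ _ _ hy

theorem U_sw (h : D.Ok ht G R lam δ) {x : Ix α} {y : ℂ} (hy : y ∈ (D.toFam X).U x) :
    (starRingEnd ℂ) y ∈ (D.toFam X).U (sw x) := by
  rcases x with a | a | p
  · change (starRingEnd ℂ) ((starRingEnd ℂ) y) ∈ D.U a
    rw [Complex.conj_conj]; exact hy
  · exact hy
  · exact h.hUs _ _ _ hy

theorem tl_conj (c : Fin 4) (y : ℂ) : tl c ((starRingEnd ℂ) y) = (starRingEnd ℂ) (tl c y) := by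
  fin_cases c <;> simp [tl, map_div₀]

theorem tp_sw (x : Ix α) (y : ℂ) :
    (D.toFam X).tp (sw x) ((starRingEnd ℂ) y) = (starRingEnd ℂ) ((D.toFam X).tp x y) := by
  rcases x with a | a | p
  · simp [Fam.tp, toFam, sw]
  · simp [Fam.tp, toFam, sw]
  · simp only [Fam.tp, toFam, sw, Sum.elim_inr]
    split_ifs
    · simp
    · exact tl_conj _ y
    · simp
    · exact tl_conj _ y

theorem psi_sw (h : D.Ok ht G R lam δ) (x : Ix α) (y : ℂ) :
    (D.toFam X).psi (sw x) ((starRingEnd ℂ) y) = (D.toFam X).psi x y := by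
  have h1 : ‖(D.toFam X).tp (sw x) ((starRingEnd ℂ) y)‖ = ‖(D.toFam X).tp x y‖ := by
    rw [tp_sw, Complex.norm_conj]
  unfold Fam.psi
  rw [h1]
  rcases x with a | a | p
  · simp [toFam, sw]
  · simp [toFam, sw]
  · simp only [toFam, sw, Sum.elim_inr]
    rw [h.hrs]

theorem rel_mirror [Fintype α] (h : D.Ok ht G R lam δ) {C : ℝ} {w : Fin 8 → ℂ} {p : ℝ} {y : ℂ}
    (hr : (D.toFam X).Rel δ C w p y) : (D.toFam X).Rel δ C (cr w) p ((starRingEnd ℂ) y) := by
  obtain ⟨c, h1, h2, h3⟩ := hr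
  refine ⟨fun x => (starRingEnd ℂ) (c (sw x)), ?_, ?_, ?_⟩
  · have : ∑ x, ‖(starRingEnd ℂ) (c (sw x))‖ = ∑ x, ‖c x‖ := by
      simp only [Complex.norm_conj]
      exact Equiv.sum_comp swE (fun x => ‖c x‖)
    rw [this]; exact h1
  · have h4 : ∑ x, (starRingEnd ℂ) (c (sw x)) • (D.toFam X).e x ((starRingEnd ℂ) y) =
        ∑ x, (starRingEnd ℂ) (c x) • (D.toFam X).e (sw x) ((starRingEnd ℂ) y) := by
      rw [← Equiv.sum_comp swE (fun x => (starRingEnd ℂ) (c x) •
        (D.toFam X).e (sw x) ((starRingEnd ℂ) y))]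
      refine Finset.sum_congr rfl fun x _ => ?_
      change _ = (starRingEnd ℂ) (c (sw x)) • (D.toFam X).e (sw (sw x)) ((starRingEnd ℂ) y)
      rw [sw_sw]
    rw [h4, h2]
    funext j
    simp only [cr, Finset.sum_apply, map_sum, Pi.smul_apply, smul_eq_mul, map_mul]
    refine Finset.sum_congr rfl fun x _ => ?_
    rw [e_sw h]
    rfl
  · intro x hx
    have hx' : c (sw x) ≠ 0 := by
      intro h0; apply hx; simp [h0]
    obtain ⟨h5, h6, h7⟩ := h3 _ hx'
    have e1 : sw (sw x) = x := sw_sw x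
    refine ⟨?_, ?_, ?_⟩
    · have := K_sw (X := X) h h5; rwa [e1] at this
    · have := tp_sw (D := D) (X := X) (sw x) y
      rw [e1] at this
      rw [this]
      simpa using h6
    · have := psi_sw (X := X) h (sw x) y
      rw [e1] at this
      rw [this]; exact h7

/-- a relation given by eight members -/
theorem rel_of_rows [Fintype α] {C : ℝ} (f : Fin 8 → Ix α) (k : Fin 8 → ℂ) {w : Fin 8 → ℂ}
    {p : ℝ} {y : ℂ} (hC : ∑ i, ‖k i‖ ≤ C) (hw : w = ∑ i, k i • (D.toFam X).e (f i) y)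
    (hk : ∀ i, k i ≠ 0 → y ∈ (D.toFam X).K (f i) ∧ (D.toFam X).tp (f i) y ≠ 0 ∧
      (D.toFam X).psi (f i) y + δ ≤ p) : (D.toFam X).Rel δ C w p y := by
  classical
  refine ⟨fun x => ∑ i, if f i = x then k i else 0, ?_, ?_, ?_⟩
  · calc ∑ x, ‖∑ i, if f i = x then k i else 0‖
        ≤ ∑ x, ∑ i, ‖if f i = x then k i else 0‖ := Finset.sum_le_sum fun x _ => norm_sum_le _ _
      _ = ∑ i, ∑ x, ‖if f i = x then k i else 0‖ := Finset.sum_comm
      _ = ∑ i, ‖k i‖ := by
          refine Finset.sum_congr rfl fun i _ => ?_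
          rw [Finset.sum_eq_single (f i)]
          · simp
          · intro x _ hx; rw [if_neg (Ne.symm hx), norm_zero]
          · intro h; exact absurd (Finset.mem_univ _) h
      _ ≤ C := hC
  · rw [hw]
    simp_rw [Finset.sum_smul]
    rw [Finset.sum_comm]
    refine Finset.sum_congr rfl fun i _ => ?_
    rw [Finset.sum_eq_single (f i)]
    · simp
    · intro x _ hx; rw [if_neg (Ne.symm hx), zero_smul]
    · intro h; exact absurd (Finset.mem_univ _) h
  · intro x hx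
    obtain ⟨i, _, hi⟩ := Finset.exists_ne_zero_of_sum_ne_zero hx
    by_cases h1 : f i = x
    · rw [if_pos h1] at hi
      rw [← h1]; exact hk i hi
    · rw [if_neg h1] at hi; exact absurd rfl hi

/-- uniform bound for finitely many coefficient rows depending continuously on a point -/
theorem bdd_of_cont {Z : Set ℂ} (hZ : IsCompact Z) {f : ℂ → Fin 8 → ℂ}
    (hf : ∀ i, ContinuousOn (fun y => f y i) Z) : ∃ C, ∀ y ∈ Z, ∑ i, ‖f y i‖ ≤ C := by
  have h1 : ContinuousOn (fun y => ∑ i, ‖f y i‖) Z :=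
    continuousOn_finsetSum _ fun i _ => (hf i).norm
  obtain ⟨C, hC⟩ := (hZ.image_of_continuousOn h1).bddAbove
  exact ⟨C, fun y hy => hC ⟨y, hy, rfl⟩⟩

theorem cont_vecMul {Z : Set ℂ} {r : Fin 8 → ℂ} {N : ℂ → Matrix (Fin 8) (Fin 8) ℂ}
    (hN : ∀ i j, ContinuousOn (fun y => N y i j) Z) (L : Matrix (Fin 8) (Fin 8) ℂ) (i : Fin 8) :
    ContinuousOn (fun y => (r ᵥ* N y ᵥ* L) i) Z := by
  simp only [Matrix.vecMul, dotProduct]
  refine continuousOn_finsetSum _ fun k _ => ContinuousOn.mul ?_ continuousOn_const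
  exact continuousOn_finsetSum _ fun l _ => continuousOn_const.mul (hN l k)

theorem bdd_fin {ι : Type*} [Finite ι] (f : ι → ℝ) : ∃ C, ∀ i, f i ≤ C := by
  obtain ⟨C, hC⟩ := (Set.finite_range f).bddAbove
  exact ⟨C, fun i => hC ⟨i, rfl⟩⟩

/-- **the constant** -/
theorem exists_bound [Fintype α] [Fintype β] (h : D.Ok ht G R lam δ) : ∃ C : ℝ,
    (∀ B a, ∑ i, ‖(D.b a ᵥ* D.IF B) i‖ ≤ C) ∧
    (∀ B a (q : Fin 4), ∑ i, ‖(D.b a ᵥ* cj (Rf q) ᵥ* cj (D.IF B)) i‖ ≤ C) ∧
    (∀ c a, ∀ y ∈ D.Z c, ∑ m, ‖(D.b a ᵥ* Pm c (TY c y) (tY c y) ᵥ* D.IM c) m‖ ≤ C) ∧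
    (∀ B c m, ∀ y ∈ D.Z c, ∑ i, ‖(D.M c m ᵥ* Qm c (TY c y) (tY c y) ᵥ* D.IF B) i‖ ≤ C) := by
  classical
  have hT : ∀ c, ContinuousOn (TY c) (D.Z c) := fun c => (diff_TY c).continuousOn.mono (h.hZR c)
  have htt : ∀ c, ContinuousOn (tY c) (D.Z c) := fun c => (diff_tY c).continuousOn.mono (h.hZR c)
  have h3 : ∀ (c : Fin 4) (a : α), ∃ C, ∀ y ∈ D.Z c,
      ∑ m, ‖(D.b a ᵥ* Pm c (TY c y) (tY c y) ᵥ* D.IM c) m‖ ≤ C := fun c a =>
    bdd_of_cont (h.hZ c) (cont_vecMul (fun i j => contP (hT c) (htt c) (h.hZ0 c) c i j) _)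
  have h4 : ∀ (p : β × Fin 4 × Fin 8), ∃ C, ∀ y ∈ D.Z p.2.1,
      ∑ i, ‖(D.M p.2.1 p.2.2 ᵥ* Qm p.2.1 (TY p.2.1 y) (tY p.2.1 y) ᵥ* D.IF p.1) i‖ ≤ C :=
    fun p => bdd_of_cont (h.hZ p.2.1)
      (cont_vecMul (fun i j => contQ (hT p.2.1) (htt p.2.1) (h.hZ0 p.2.1) p.2.1 i j) _)
  choose C3 hC3 using h3
  choose C4 hC4 using h4
  obtain ⟨D1, hD1⟩ := bdd_fin fun p : β × α => ∑ i, ‖(D.b p.2 ᵥ* D.IF p.1) i‖
  obtain ⟨D2, hD2⟩ := bdd_fin fun p : β × α × Fin 4 =>
    ∑ i, ‖(D.b p.2.1 ᵥ* cj (Rf p.2.2) ᵥ* cj (D.IF p.1)) i‖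
  obtain ⟨D3, hD3⟩ := bdd_fin fun p : Fin 4 × α => C3 p.1 p.2
  obtain ⟨D4, hD4⟩ := bdd_fin fun p : β × Fin 4 × Fin 8 => C4 p
  refine ⟨max (max D1 D2) (max D3 D4), fun B a => ?_, fun B a q => ?_, fun c a y hy => ?_,
    fun B c m y hy => ?_⟩
  · exact (hD1 (B, a)).trans ((le_max_left _ _).trans (le_max_left _ _))
  · exact (hD2 (B, a, q)).trans ((le_max_right _ _).trans (le_max_left _ _))
  · exact ((hC3 c a y hy).trans (hD3 (c, a))).trans ((le_max_left _ _).trans (le_max_right _ _))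
  · exact ((hC4 (B, c, m) y hy).trans (hD4 (B, c, m))).trans
      ((le_max_right _ _).trans (le_max_right _ _))

theorem F0_apply (B : β) (i : Fin 8) : D.F0 B i = D.b (D.fr B i) := rfl

/-- **the family is good** -/
theorem good [Fintype α] [Fintype β] (hV : IsV V) (hX : IsX V X) (h : D.Ok ht G R lam δ) :
    ∃ C, (D.toFam X).Good ht G R lam δ C := by
  obtain ⟨C, b1, b2, b3, b4⟩ := exists_bound h
  -- edges of the up vectors
  have up_edge : ∀ a, ∀ y ∈ D.K a, y ∉ D.U a →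
      (D.toFam X).Rel δ C (eU X (D.b a) y) (D.psi a y) y := by
    intro a y hy hyU
    rcases h.edge_up a y hy hyU with ⟨B, hE⟩ | ⟨B, hE⟩ | ⟨c, hE⟩
    · refine rel_of_rows (fun i => .inl (D.fr B i)) (fun i => (D.b a ᵥ* D.IF B) i) (b1 B a)
        ?_ fun i hi => ?_
      · exact frame_const (h.hIF B) (D.b a) y
      · obtain ⟨h1, h2⟩ := hE i hi
        refine ⟨h1, ?_, ?_⟩
        · simp [Fam.tp, toFam]
        · simpa [Fam.psi, Fam.tp, toFam] using h2
    · obtain ⟨h1, h2, h3⟩ := hE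
      refine rel_of_rows (fun i => .inr (.inl (D.fr B i)))
        (fun i => (D.b a ᵥ* cj (Rf (qy y.re)) ᵥ* cj (D.IF B)) i) (b2 B a _) ?_ fun i hi => ?_
      · exact frame_strip hX (h.hIF B) (D.b a) h1 h2
      · obtain ⟨h4, h5⟩ := h3 i hi
        refine ⟨h4, ?_, ?_⟩
        · simp [Fam.tp, toFam]
        · simpa [Fam.psi, Fam.tp, toFam] using h5
    · obtain ⟨hyZ, h3⟩ := hE
      have hR := h.hZR c hyZ
      have h0 := h.hZ0 c y hyZ
      refine rel_of_rows (fun m => .inr (.inr (c, m)))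
        (fun m => (D.b a ᵥ* Pm c (TY c y) (tY c y) ᵥ* D.IM c) m) (b3 c a y hyZ) ?_ fun m hm => ?_
      · rw [frame_cusp hV hX c (h.hIM c) (D.b a) hR h0]
        refine Finset.sum_congr rfl fun m _ => ?_
        rw [← GM_eq _ hR h0]
        rfl
      · obtain ⟨h4, h5⟩ := h3 m hm
        refine ⟨h4, ?_, ?_⟩
        · simp only [Fam.tp, toFam, Sum.elim_inr]
          split_ifs
          · exact one_ne_zero
          · rw [tl_eq_tY]; exact h0
          · exact one_ne_zero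
          · rename_i h6 h7; exact absurd rfl h7
        · have e1 : (D.toFam X).psi (.inr (.inr (c, m))) y = D.psic c m y := by
            simp only [Fam.psi, Fam.tp, toFam, Sum.elim_inr, psic]
            congr 3
            split_ifs with h6 h7 h8
            · rw [h7] at h6
              rw [h.fl3 m] at h6
              exact absurd h6 (by simp)
            · rfl
            · rfl
            · exact absurd rfl h8
          rw [e1]; exact h5
  have e1 : ∀ (c : Fin 4) (m : Fin 8) (y : ℂ),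
      (D.toFam X).psi (.inr (.inr (c, m))) y = D.psic c m y := by
    intro c m y
    simp only [Fam.psi, Fam.tp, toFam, Sum.elim_inr, psic]
    congr 3
    split_ifs with h6 h7 h8
    · rw [h7] at h6
      rw [h.fl3 m] at h6
      exact absurd h6 (by simp)
    · rfl
    · rfl
    · exact absurd rfl h8
  -- edges of the cusp vectors, lower half
  have tpne : ∀ (c : Fin 4) (m : Fin 8) (y : ℂ), tY c y ≠ 0 →
      (D.toFam X).tp (.inr (.inr (c, m))) y ≠ 0 := by
    intro c m y h0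
    simp only [Fam.tp, toFam, Sum.elim_inr]
    split_ifs
    · exact one_ne_zero
    · rw [tl_eq_tY]; exact h0
    · exact one_ne_zero
    · rename_i h6 h7; exact absurd rfl h7
  have c_edge : ∀ c m, ∀ y ∈ D.Kc c m, y ∉ D.Uc c m → y.im ≤ 0 →
      (D.toFam X).tp (.inr (.inr (c, m))) y ≠ 0 ∧
      ((D.toFam X).Rel δ C (GM c (D.M c m) y) (D.psic c m y) y ∨
        (c = 3 ∧ ‖y‖ = R m ∧ lam ≤ D.psic c m y)) := by
    intro c m y hy hyU him
    rcases h.edge_c c m y hy hyU him with ⟨B, hE⟩ | h5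
    · obtain ⟨hyZ, h3⟩ := hE
      have hR := h.hZR c hyZ
      have h0 := h.hZ0 c y hyZ
      refine ⟨tpne c m y h0, Or.inl ?_⟩
      refine rel_of_rows (fun i => .inl (D.fr B i))
        (fun i => (D.M c m ᵥ* Qm c (TY c y) (tY c y) ᵥ* D.IF B) i) (b4 B c m y hyZ) ?_
        fun i hi => ?_
      · rw [GM_eq _ hR h0, frame_up hV hX c (h.hIF B) (D.M c m) hR h0]
        rfl
      · obtain ⟨h4, h5⟩ := h3 i hi
        refine ⟨h4, ?_, ?_⟩
        · simp [Fam.tp, toFam]
        · simpa [Fam.psi, Fam.tp, toFam] using h5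
    · refine ⟨?_, Or.inr h5⟩
      obtain ⟨rfl, -, -⟩ := h5
      simp only [Fam.tp, toFam, Sum.elim_inr]
      rw [if_pos]
      · exact one_ne_zero
      · split_ifs <;> rfl
  refine ⟨C, ?_⟩
  have conj_cont : ∀ S : Set ℂ, IsCompact S → IsCompact {y : ℂ | (starRingEnd ℂ) y ∈ S} := by
    intro S hS
    have : {y : ℂ | (starRingEnd ℂ) y ∈ S} = (starRingEnd ℂ) '' S := by
      ext y
      constructor
      · intro hy; exact ⟨_, hy, Complex.conj_conj y⟩
      · rintro ⟨z, hz, rfl⟩; simpa using hz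
    rw [this]
    exact hS.image Complex.continuous_conj
  refine
    { hK := ?_, hU := ?_, hUK := ?_, cont := ?_, ana := ?_, disc := ?_, grp := ?_, regc := ?_,
      rega := ?_, edge := ?_ }
  · rintro (a | a | p)
    · exact h.hK a
    · exact conj_cont _ (h.hK a)
    · exact h.hKc _ _
  · rintro (a | a | p)
    · exact h.hU a
    · exact (h.hU a).preimage Complex.continuous_conj
    · exact h.hUc _ _
  · rintro (a | a | p)
    · exact h.hUK a
    · intro y hy; exact h.hUK a hy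
    · exact h.hUKc _ _
  · rintro (a | a | p) _ j
    · exact fun y hy => (analyticAt_eU hX _ (h.hOm a hy) j).continuousAt.continuousWithinAt
    · exact fun y hy => (analyticAt_eL hX _ (h.hOm a hy) j).continuousAt.continuousWithinAt
    · exact fun y hy => (analyticAt_GM _ _ j (h.hDY _ _ hy)).continuousAt.continuousWithinAt
  · rintro (a | a | p) _ y hy j
    · exact analyticAt_eU hX _ (h.hOm a (h.hUK a hy)) j
    · exact analyticAt_eL hX _ (h.hOm a (h.hUK a hy)) j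
    · exact analyticAt_GM _ _ j (h.hDY _ _ (h.hUKc _ _ hy))
  · rintro (a | a | ⟨c, m⟩) hc y hy
    · exact absurd rfl hc
    · exact absurd rfl hc
    · have hc' : (if D.fl c m then c else 3) ≠ (3 : Fin 4) := hc
      have hfl : D.fl c m = true := by
        by_contra h0
        rw [if_neg h0] at hc'
        exact hc' rfl
      rw [if_pos hfl] at hc'
      have e2 : (D.toFam X).cu (.inr (.inr (c, m))) = c := if_pos hfl
      rw [e2]
      obtain ⟨h1, h2⟩ := yt_tl hc' (h.hDY c m hy)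
      exact ⟨h1, h2, h.flw c m hfl y hy⟩
  · rintro (a | a | ⟨c, m⟩) hc g hg
    · exact absurd rfl hc
    · exact absurd rfl hc
    · have hc' : (if D.fl c m then c else 3) ≠ (3 : Fin 4) := hc
      have hfl : D.fl c m = true := by
        by_contra h0
        rw [if_neg h0] at hc'
        exact hc' rfl
      have e2 : (D.toFam X).cu (.inr (.inr (c, m))) = c := if_pos hfl
      rw [e2]
      exact h.flg c m hfl g hg
  · rintro (a | a | ⟨c, m⟩)
    · exact h.hpc a
    · exact (h.hpc a).comp Complex.continuous_conj.continuousOn fun y hy => hy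
    · exact h.hrc c m
  · rintro (a | a | ⟨c, m⟩) y hy
    · exact h.hpa a y hy
    · obtain ⟨Ψ, hΨ, hΨ'⟩ := h.hpa a _ hy
      refine ⟨fun z => (starRingEnd ℂ) (Ψ ((starRingEnd ℂ) z)), analyticAt_conj_conj hΨ, ?_⟩
      have hcont : Tendsto (starRingEnd ℂ) (𝓝 y) (𝓝 ((starRingEnd ℂ) y)) :=
        Complex.continuous_conj.continuousAt
      filter_upwards [hcont.eventually hΨ'] with z hz
      change ((starRingEnd ℂ) (Ψ ((starRingEnd ℂ) z))).re = D.psi a ((starRingEnd ℂ) z)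
      rw [Complex.conj_re]; exact hz
    · exact h.hra c m y hy
  · have hup : ∀ a, ∀ y ∈ (D.toFam X).K (.inl a), y ∉ (D.toFam X).U (.inl a) →
        (D.toFam X).Rel δ C ((D.toFam X).e (.inl a) y) ((D.toFam X).psi (.inl a) y) y := by
      intro a y hy hyU
      have := up_edge a y hy hyU
      have e3 : (D.toFam X).psi (.inl a) y = D.psi a y := by
        simp [Fam.psi, Fam.tp, toFam]
      rw [e3]; exact this
    rintro (a | a | ⟨c, m⟩) y hy hyU
    · refine ⟨by simp [Fam.tp, toFam], Or.inl (hup a y hy hyU)⟩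
    · refine ⟨by simp [Fam.tp, toFam], Or.inl ?_⟩
      have h1 := rel_mirror h (hup a ((starRingEnd ℂ) y) hy hyU)
      have e3 := e_sw (X := X) h (.inl a) ((starRingEnd ℂ) y)
      have e4 := psi_sw (X := X) h (.inl a) ((starRingEnd ℂ) y)
      rw [Complex.conj_conj] at e3 e4 h1
      rw [← e3, ← e4] at h1
      exact h1
    · by_cases him : y.im ≤ 0
      · obtain ⟨h1, h2⟩ := c_edge c m y hy hyU him
        refine ⟨h1, ?_⟩
        rcases h2 with h2 | ⟨rfl, h3, h4⟩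
        · left; rw [e1]; exact h2
        · right
          exact ⟨m, h3, h.hout m y h3, by rw [e1]; exact h4⟩
      · have him' : ((starRingEnd ℂ) y).im ≤ 0 := by
          simp only [Complex.conj_im]; linarith
        have hy' := h.hKs c m y hy
        have hyU' : (starRingEnd ℂ) y ∉ D.Uc c m := by
          intro h0
          have := h.hUs c m _ h0
          rw [Complex.conj_conj] at this
          exact hyU this
        obtain ⟨h1, h2⟩ := c_edge c m _ hy' hyU' him'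
        have e3 := e_sw (X := X) h (.inr (.inr (c, m))) ((starRingEnd ℂ) y)
        have e4 := psi_sw (X := X) h (.inr (.inr (c, m))) ((starRingEnd ℂ) y)
        have e5 := tp_sw (D := D) (X := X) (.inr (.inr (c, m))) ((starRingEnd ℂ) y)
        rw [Complex.conj_conj] at e3 e4 e5
        refine ⟨?_, ?_⟩
        · change (D.toFam X).tp (sw (.inr (.inr (c, m)))) y ≠ 0
          rw [e5]
          simpa using h1
        · rcases h2 with h2 | ⟨rfl, h3, h4⟩
          · left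
            have h5 := rel_mirror h h2
            rw [Complex.conj_conj] at h5
            change (D.toFam X).Rel δ C ((D.toFam X).e (sw (.inr (.inr (c, m)))) y)
              ((D.toFam X).psi (sw (.inr (.inr (c, m)))) y) y
            rw [e3, e4, e1]
            exact h5
          · right
            have h3' : ‖y‖ = R m := by rwa [Complex.norm_conj] at h3
            refine ⟨m, h3', h.hout m y h3', ?_⟩
            change lam ≤ (D.toFam X).psi (sw (.inr (.inr (3, m)))) y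
            rw [e4, e1]; exact h4

end CD

end

end Vale.Agent.P030.H552
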