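import Vale.Agent.P030.H552.Rel
import Vale.Agent.P030.H181.GFrames
import Vale.Agent.P030.H352.HarmFam

/-!
# P030, route H, data side (2): dictionary of the cusp frames

`GM c r y` (181, analytic on `DY c`) is `r ᵥ* Gm c y` off the cusp; local parameters of 181, 352 and
580 agree.
-/

open Complex Set Filter Topology Matrix PowerSeries

namespace Vale.Agent.P030.H552

open Vale.Agent.P030.T Vale.Agent.P030.H462 Vale.Agent.P030.AR Vale.Agent.P030.H787
open Vale.Agent.P030.H181
open Vale.Agent.P030.H580 (tY TY RY)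
open Vale.Agent.P030.H352 (tl yt outv)

noncomputable section

theorem tc_eq_tY (c : Fin 4) (y : ℂ) : H181.tc c y = tY c y := by
  fin_cases c <;> rfl

theorem tl_eq_tY (c : Fin 4) (y : ℂ) : tl c y = tY c y := by
  fin_cases c
  · rfl
  · rfl
  · rfl
  · change y⁻¹ = 1 / y
    rw [one_div]

theorem GF_other {c : Fin 4} {m : Fin 8} (h : ¬(c = 0 ∧ m = 0)) (t : ℂ) :
    GF c m t = evt (gf0 c m) t := GF_of_ne h t

theorem evt_wMt {t : ℂ} (ht : ‖t‖ < 1) (h0 : t ≠ 0) : GF 1 7 t = Gf 1 t 7 := by
  rw [GF_wMt ht h0]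
  funext j
  simp only [Gf, Pi.smul_apply, Pi.add_apply, smul_eq_mul, sv7]
  change _ = (t • evt wM0 t + ((1 - t ^ 2) / 2 * evq serK t) • (Pi.single 7 1 : Fin 8 → ℂ)) j
  simp only [Pi.smul_apply, Pi.add_apply, smul_eq_mul]
  field_simp

theorem GF_eq_Gf (c : Fin 4) (m : Fin 8) {t : ℂ} (ht : ‖t‖ < 1) (h0 : t ≠ 0) :
    GF c m t = Gf c t m := by
  fin_cases c
  · fin_cases m
    · exact GF_z1 t
    · exact GF_zl t
    · exact GF_other (by decide) t
    · exact GF_d0 t
    · exact GF_g0 t
    · exact GF_h0 t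
    · exact GF_z8 t
    · exact GF_other (by decide) t
  · fin_cases m
    · exact GF_w1 t
    · exact GF_wl t
    · exact GF_other (by decide) t
    · exact GF_d1 t
    · exact GF_g1 t
    · exact GF_h1 t
    · exact GF_w8 t
    · exact evt_wMt ht h0
  · fin_cases m
    · exact GF_other (by decide) t
    · exact GF_other (by decide) t
    · exact GF_vb t
    · exact GF_v2 t
    · exact GF_vl t
    · exact GF_h2 t
    · exact GF_v8 t
    · exact GF_other (by decide) t
  · fin_cases m
    · exact GF_x2 t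
    · exact GF_xl t
    · exact GF_x1 t
    · exact GF_other (by decide) t
    · exact GF_other (by decide) t
    · change GF 3 5 t = dv
      rw [GF_other (by decide)]
      change evt ![0, 0, 0, 1, 0, 0, 0, 0] t = dv
      funext j
      fin_cases j <;> simp [evt, dv, evq_zero, evq_one]
    · exact GF_other (by decide) t
    · exact GF_other (by decide) t

theorem DY_of_RY {c : Fin 4} {y : ℂ} (hy : y ∈ RY c) : y ∈ DY c := by
  fin_cases c
  · exact hy.1
  · exact hy.1
  · exact hy.1
  · exact hy.1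

/-- the cusp vector with the row `r` -/
theorem GM_eq {c : Fin 4} (r : Fin 8 → ℂ) {y : ℂ} (hy : y ∈ RY c) (h0 : tY c y ≠ 0) :
    GM c r y = eG c r y := by
  have hlt := Vale.Agent.P030.H580.norm_tY_lt c hy
  funext j
  simp only [GM, eG, Matrix.vecMul, dotProduct, Gm, Matrix.of_apply]
  refine Finset.sum_congr rfl fun m _ => ?_
  rw [GY, tc_eq_tY, GF_eq_Gf c m hlt h0]

/-- reality of the cusp vectors -/
theorem cr_GM (c : Fin 4) {r : Fin 8 → ℂ} (hr : cr r = r) (y : ℂ) :
    cr (GM c r ((starRingEnd ℂ) y)) = GM c r y := by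
  funext j
  simp only [cr, GM, map_sum, map_mul]
  refine Finset.sum_congr rfl fun m _ => ?_
  have h1 : (starRingEnd ℂ) (r m) = r m := congrFun hr m
  rw [h1, conj_GY, Complex.conj_conj]

/-- the chart of 352 -/
theorem yt_tl {c : Fin 4} (hc : c ≠ 3) {y : ℂ} (hy : y ∈ DY c) :
    yt c (tl c y) = y ∧ ‖tl c y‖ < 1 := by
  have h1 : ‖tl c y‖ < 1 := by
    rw [tl_eq_tY, ← tc_eq_tY]; exact (tc_props c hy).1
  refine ⟨?_, h1⟩
  fin_cases c
  · have h2 : y.re < 0 := hy
    have h3 : y - 1 ≠ 0 := by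
      intro h; have := congrArg Complex.re (sub_eq_zero.1 h); simp at this; linarith
    change ((y + 1) / (y - 1) + 1) / ((y + 1) / (y - 1) - 1) = y
    have h4 : (y + 1) / (y - 1) - 1 = 2 / (y - 1) := by field_simp; ring
    have h5 : (y + 1) / (y - 1) + 1 = 2 * y / (y - 1) := by field_simp; ring
    rw [h4, h5]
    field_simp
  · rfl
  · have h2 : 0 < y.re := hy
    have h3 : y + 1 ≠ 0 := by
      intro h
      have := congrArg Complex.re h
      simp at this
      linarith
    change (1 + (y - 1) / (y + 1)) / (1 - (y - 1) / (y + 1)) = y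
    have h4 : 1 - (y - 1) / (y + 1) = 2 / (y + 1) := by field_simp; ring
    have h5 : 1 + (y - 1) / (y + 1) = 2 * y / (y + 1) := by field_simp; ring
    rw [h4, h5]
    field_simp
  · exact absurd rfl hc

/-- combinations of rows -/
theorem GM_combo (c : Fin 4) (r : Fin 8 → ℂ) (y : ℂ) : GM c r y = ∑ m, r m • GY c m y := by
  funext j
  simp [GM, Finset.sum_apply]

end

end Vale.Agent.P030.H552
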