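import Mathlib

/-! Cauchy's integral formula for rectangles. -/

open Complex MeasureTheory intervalIntegral Set Filter Topology

namespace Vale.Agent.P030.H552

variable {E : Type*} [NormedAddCommGroup E] [NormedSpace ℂ E]

/-- Boundary integral (counterclockwise) over the rectangle `[x0,x1] x [y0,y1]`. -/
noncomputable def rct (x0 x1 y0 y1 : ℝ) (F : ℂ → E) : E :=
  (∫ x : ℝ in x0..x1, F (x + y0 * I)) - (∫ x : ℝ in x0..x1, F (x + y1 * I)) +
  I • (∫ y : ℝ in y0..y1, F (x1 + y * I)) - I • (∫ y : ℝ in y0..y1, F (x0 + y * I))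

theorem rct_eq_zero {x0 x1 y0 y1 : ℝ} (hx : x0 ≤ x1) (hy : y0 ≤ y1) {F : ℂ → E}
    (h : DifferentiableOn ℂ F (Icc x0 x1 ×ℂ Icc y0 y1)) : rct x0 x1 y0 y1 F = 0 := by
  have := Complex.integral_boundary_rect_eq_zero_of_differentiableOn F
    (x0 + y0 * I) (x1 + y1 * I)
  simp only [add_re, ofReal_re, mul_re, ofReal_im, I_re, mul_zero, I_im, mul_one, sub_self,
    add_zero, add_im, mul_im, zero_add, uIcc_of_le hx, uIcc_of_le hy] at this
  exact this h

theorem log_I_mul {w : ℂ} (h0 : w ≠ 0) (h : 0 ≤ w.re) :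
    Complex.log (I * w) = Complex.log w + (Real.pi / 2 : ℝ) * I := by
  rw [Complex.log_mul I_ne_zero h0, Complex.log_I]
  · push_cast; ring
  · have h1 : |Complex.arg w| ≤ Real.pi / 2 := Complex.abs_arg_le_pi_div_two_iff.mpr h
    have h2 := abs_le.mp h1
    rw [Complex.arg_I]
    constructor
    · linarith [Real.pi_pos, h2.1]
    · linarith [h2.2]

/-- integral of `1/(z-a)` along a horizontal segment below `a`, etc. (abstract form) -/
theorem seg_log {s0 s1 : ℝ} (c d e : ℂ) (hc : c ≠ 0)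
    (hs : ∀ s ∈ uIcc s0 s1, c * (d + s * e) ∈ slitPlane) :
    ∫ s : ℝ in s0..s1, e * (d + s * e)⁻¹ =
      Complex.log (c * (d + s1 * e)) - Complex.log (c * (d + s0 * e)) := by
  have hne : ∀ s ∈ uIcc s0 s1, d + (s : ℂ) * e ≠ 0 := by
    intro s hs' h0
    have := hs s hs'
    rw [h0, mul_zero] at this
    exact zero_notMem_slitPlane this
  apply intervalIntegral.integral_eq_sub_of_hasDerivAt
  · intro s hs'
    have h1 : HasDerivAt (fun s : ℝ => c * (d + (s : ℂ) * e)) (c * e) s := by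
      have h2 : HasDerivAt (fun s : ℝ => ((s : ℝ) : ℂ)) 1 s := Complex.ofRealCLM.hasDerivAt
      have h3 := (h2.mul_const e).const_add d
      simpa using h3.const_mul c
    have h4 := h1.clog_real (hs s hs')
    have h5 : c * e / (c * (d + (s : ℂ) * e)) = e * (d + (s : ℂ) * e)⁻¹ := by
      rw [mul_div_mul_left _ _ hc, div_eq_mul_inv]
    rw [h5] at h4
    exact h4
  · apply ContinuousOn.intervalIntegrable
    apply ContinuousOn.mul continuousOn_const
    apply ContinuousOn.inv₀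
    · fun_prop
    · exact hne

/-- `∮ dz/(z-a) = 2 pi i` for `a` inside the rectangle. -/
theorem rct_inv {x0 x1 y0 y1 : ℝ} {a : ℂ} (hx0 : x0 < a.re) (hx1 : a.re < x1)
    (hy0 : y0 < a.im) (hy1 : a.im < y1) :
    rct x0 x1 y0 y1 (fun z => (z - a)⁻¹) = 2 * Real.pi * I := by
  have hxx : x0 ≤ x1 := by linarith
  have hyy : y0 ≤ y1 := by linarith
  -- corners
  have hB : ∫ x : ℝ in x0..x1, ((x : ℂ) + y0 * I - a)⁻¹ =
      Complex.log (I * ((x1 : ℂ) + y0 * I - a)) - Complex.log (I * ((x0 : ℂ) + y0 * I - a)) := by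
    have := seg_log (s0 := x0) (s1 := x1) I (y0 * I - a) 1 I_ne_zero (by
      intro s hs
      rw [mem_slitPlane_iff]; left
      simp; linarith)
    simp only [one_mul, mul_one] at this
    have h2 : ∀ x : ℝ, (y0 * I - a + (x : ℂ)) = (x : ℂ) + y0 * I - a := fun x => by ring
    simp only [h2] at this
    exact this
  have hT : ∫ x : ℝ in x0..x1, ((x : ℂ) + y1 * I - a)⁻¹ =
      Complex.log (-I * ((x1 : ℂ) + y1 * I - a)) - Complex.log (-I * ((x0 : ℂ) + y1 * I - a)) := by
    have := seg_log (s0 := x0) (s1 := x1) (-I) (y1 * I - a) 1 (neg_ne_zero.mpr I_ne_zero) (by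
      intro s hs
      rw [mem_slitPlane_iff]; left
      simp; linarith)
    simp only [one_mul, mul_one] at this
    have h2 : ∀ x : ℝ, (y1 * I - a + (x : ℂ)) = (x : ℂ) + y1 * I - a := fun x => by ring
    simp only [h2] at this
    exact this
  have hR : I • ∫ y : ℝ in y0..y1, ((x1 : ℂ) + y * I - a)⁻¹ =
      Complex.log ((x1 : ℂ) + y1 * I - a) - Complex.log ((x1 : ℂ) + y0 * I - a) := by
    have := seg_log (s0 := y0) (s1 := y1) 1 (x1 - a) I one_ne_zero (by
      intro s hs
      rw [mem_slitPlane_iff]; left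
      simp; linarith)
    simp only [one_mul] at this
    have h2 : ∀ x : ℝ, ((x1 : ℂ) - a + (x : ℂ) * I) = (x1 : ℂ) + x * I - a := fun x => by ring
    simp only [h2] at this
    rw [intervalIntegral.integral_const_mul] at this
    rw [smul_eq_mul]
    exact this
  have hL : I • ∫ y : ℝ in y0..y1, ((x0 : ℂ) + y * I - a)⁻¹ =
      Complex.log (-1 * ((x0 : ℂ) + y1 * I - a)) - Complex.log (-1 * ((x0 : ℂ) + y0 * I - a)) := by
    have := seg_log (s0 := y0) (s1 := y1) (-1) (x0 - a) I (by norm_num) (by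
      intro s hs
      rw [mem_slitPlane_iff]; left
      simp; linarith)
    have h2 : ∀ x : ℝ, ((x0 : ℂ) - a + (x : ℂ) * I) = (x0 : ℂ) + x * I - a := fun x => by ring
    simp only [h2] at this
    rw [intervalIntegral.integral_const_mul] at this
    rw [smul_eq_mul]
    exact this
  -- the four corners
  have c1 : Complex.log (I * ((x1 : ℂ) + y0 * I - a)) =
      Complex.log ((x1 : ℂ) + y0 * I - a) + (Real.pi / 2 : ℝ) * I := by
    apply log_I_mul
    · intro h; have := congrArg Complex.re h; simp at this; linarith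
    · simp; linarith
  have c2 : Complex.log ((x1 : ℂ) + y1 * I - a) =
      Complex.log (-I * ((x1 : ℂ) + y1 * I - a)) + (Real.pi / 2 : ℝ) * I := by
    rw [← log_I_mul]
    · congr 1
      rw [← mul_assoc, mul_neg, I_mul_I, neg_neg, one_mul]
    · intro h; have := congrArg Complex.re h; simp at this; linarith
    · simp; linarith
  have c3 : Complex.log (-I * ((x0 : ℂ) + y1 * I - a)) =
      Complex.log (-1 * ((x0 : ℂ) + y1 * I - a)) + (Real.pi / 2 : ℝ) * I := by
    rw [← log_I_mul]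
    · congr 1; ring
    · intro h; have := congrArg Complex.re h; simp at this; linarith
    · simp; linarith
  have c4 : Complex.log (-1 * ((x0 : ℂ) + y0 * I - a)) =
      Complex.log (I * ((x0 : ℂ) + y0 * I - a)) + (Real.pi / 2 : ℝ) * I := by
    rw [← log_I_mul]
    · congr 1
      rw [← mul_assoc, I_mul_I]
    · intro h; have := congrArg Complex.re h; simp at this; linarith
    · simp; linarith
  unfold rct
  rw [hB, hT, hR, hL, c1, c2, c3, c4]
  push_cast
  ring

theorem rct_congr {x0 x1 y0 y1 : ℝ} (hx : x0 ≤ x1) (hy : y0 ≤ y1) {F G : ℂ → E}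
    (hB : ∀ x ∈ Icc x0 x1, F (x + y0 * I) = G (x + y0 * I))
    (hT : ∀ x ∈ Icc x0 x1, F (x + y1 * I) = G (x + y1 * I))
    (hR : ∀ y ∈ Icc y0 y1, F (x1 + y * I) = G (x1 + y * I))
    (hL : ∀ y ∈ Icc y0 y1, F (x0 + y * I) = G (x0 + y * I)) :
    rct x0 x1 y0 y1 F = rct x0 x1 y0 y1 G := by
  unfold rct
  have e1 : ∫ x : ℝ in x0..x1, F (x + y0 * I) = ∫ x : ℝ in x0..x1, G (x + y0 * I) :=
    intervalIntegral.integral_congr (fun x hx' => hB x (by rwa [uIcc_of_le hx] at hx'))
  have e2 : ∫ x : ℝ in x0..x1, F (x + y1 * I) = ∫ x : ℝ in x0..x1, G (x + y1 * I) :=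
    intervalIntegral.integral_congr (fun x hx' => hT x (by rwa [uIcc_of_le hx] at hx'))
  have e3 : ∫ y : ℝ in y0..y1, F (x1 + y * I) = ∫ y : ℝ in y0..y1, G (x1 + y * I) :=
    intervalIntegral.integral_congr (fun y hy' => hR y (by rwa [uIcc_of_le hy] at hy'))
  have e4 : ∫ y : ℝ in y0..y1, F (x0 + y * I) = ∫ y : ℝ in y0..y1, G (x0 + y * I) :=
    intervalIntegral.integral_congr (fun y hy' => hL y (by rwa [uIcc_of_le hy] at hy'))
  rw [e1, e2, e3, e4]

end Vale.Agent.P030.H552
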