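import Vale.Agent.P030.H552.Strip
import Vale.Agent.P030.H580.Vgl
import Vale.Agent.P030.AR.Flat

/-!
# P030, route H, data side (1): the relations between up vectors, low vectors, cusp vectors and
the rows at `c3`, in matrix form

`Xm X y`, `Lm X y`, `Gm c y` : the 8 × 8 matrices whose rows are the up vectors, the low vectors
(their conjugates) and the log-free tuples at the cusp `c`.  A vector is a row `b`, its value
`b ᵥ* Xm X y`.
-/

open Complex Set Filter Topology Matrix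

namespace Vale.Agent.P030.H552

open Vale.Agent.P030.AR
open Vale.Agent.P030.H580 (tY TY RY glc OmY X_gl)

noncomputable section

/-- entrywise conjugation -/
def cj {m n : Type*} (M : Matrix m n ℂ) : Matrix m n ℂ := M.map (starRingEnd ℂ)

theorem cj_mul {m n k : Type*} [Fintype n] (M : Matrix m n ℂ) (N : Matrix n k ℂ) :
    cj (M * N) = cj M * cj N := by
  ext i j
  simp [cj, Matrix.mul_apply]

theorem cj_cj {m n : Type*} (M : Matrix m n ℂ) : cj (cj M) = M := by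
  ext i j; simp [cj]

theorem cj_one {n : Type*} [DecidableEq n] : cj (1 : Matrix n n ℂ) = 1 := by
  ext i j
  by_cases h : i = j <;> simp [cj, Matrix.one_apply, h]

/-- conjugate row -/
def cr {n : Type*} (b : n → ℂ) : n → ℂ := fun i => (starRingEnd ℂ) (b i)

theorem cr_cr {n : Type*} (b : n → ℂ) : cr (cr b) = b := by funext i; simp [cr]

theorem cr_vecMul {m n : Type*} [Fintype m] (b : m → ℂ) (M : Matrix m n ℂ) :
    cr (b ᵥ* M) = cr b ᵥ* cj M := by
  funext j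
  simp [cr, cj, Matrix.vecMul, dotProduct]

/-- rows = the up vectors -/
def Xm (X : Fin 8 → ℂ → Fin 8 → ℂ) (y : ℂ) : Matrix (Fin 8) (Fin 8) ℂ := of fun k j => X k y j

/-- rows = the low vectors -/
def Lm (X : Fin 8 → ℂ → Fin 8 → ℂ) (y : ℂ) : Matrix (Fin 8) (Fin 8) ℂ :=
  cj (Xm X ((starRingEnd ℂ) y))

/-- rows = the log-free tuples -/
def Gm (c : Fin 4) (y : ℂ) : Matrix (Fin 8) (Fin 8) ℂ := of fun m j => Gf c (tY c y) m j

theorem eU_eq (X : Fin 8 → ℂ → Fin 8 → ℂ) (b : Fin 8 → ℂ) (y : ℂ) : eU X b y = b ᵥ* Xm X y := by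
  funext j
  simp [eU, Xm, Matrix.vecMul, dotProduct]

theorem eL_eq (X : Fin 8 → ℂ → Fin 8 → ℂ) (b : Fin 8 → ℂ) (y : ℂ) :
    eL X b y = cr b ᵥ* Lm X y := by
  funext j
  simp [eL, eU_eq, Lm, cr, cj, Matrix.vecMul, dotProduct]

theorem vecMul_eq_sum {n : Type*} [Fintype n] {m : Type*} (r : n → ℂ) (N : Matrix n m ℂ) :
    r ᵥ* N = ∑ i, r i • N i := by
  funext j
  simp [Matrix.vecMul, dotProduct, Finset.sum_apply]

variable {V X : Fin 8 → ℂ → Fin 8 → ℂ}

/-- the strip relation for all vectors at once -/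
theorem Xm_strip (hX : IsX V X) {y : ℂ} (hy : 0 ≤ y.im) (hnc : NC y.re) :
    Xm X y = cj (Rf (qy y.re)) * Lm X y := by
  ext i j
  rw [Matrix.mul_apply]
  exact hX.low i y hy hnc j

theorem Lm_strip (hX : IsX V X) {y : ℂ} (hy : y.im ≤ 0) (hnc : NC y.re) :
    Lm X y = Rf (qy y.re) * Xm X y := by
  have h := Xm_strip hX (y := (starRingEnd ℂ) y) (by simpa using hy) (by simpa using hnc)
  rw [Lm, h, cj_mul, cj_cj, Lm, cj_cj, Complex.conj_conj]
  simp

/-- the cusp relation for all vectors at once -/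
theorem Xm_cusp (hV : IsV V) (hX : IsX V X) (c : Fin 4) {y : ℂ} (hy : y ∈ RY c)
    (ht0 : tY c y ≠ 0) : Xm X y = Pm c (TY c y) (tY c y) * Gm c y := by
  have hd : ∀ i j, DifferentiableOn ℂ (fun y => X i y j) OmY := fun i j z hz =>
    (hX.ana z hz i j).differentiableAt.differentiableWithinAt
  have hlt := Vale.Agent.P030.H580.norm_tY_lt c hy
  ext i j
  rw [Matrix.mul_apply]
  change X i y j = _
  rw [X_gl hV hd hX.up c i hy]
  have h1 := gl_eq c (TY c y) hlt ht0 i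
  have h2 : glc c (TY c y) (tY c y) i = gl c (TY c y) (tY c y) i := by
    fin_cases c <;> rfl
  rw [h2, h1, Finset.sum_apply]
  rfl

theorem Gm_cusp (hV : IsV V) (hX : IsX V X) (c : Fin 4) {y : ℂ} (hy : y ∈ RY c)
    (ht0 : tY c y ≠ 0) : Gm c y = Qm c (TY c y) (tY c y) * Xm X y := by
  rw [Xm_cusp hV hX c hy ht0, ← Matrix.mul_assoc, Qm_mul_Pm c _ ht0, Matrix.one_mul]

/-! ### relations with a frame -/

/-- change of frame in the interior -/
theorem frame_const {F IF : Matrix (Fin 8) (Fin 8) ℂ} (h : IF * F = 1) (b : Fin 8 → ℂ) (y : ℂ) :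
    eU X b y = ∑ i, (b ᵥ* IF) i • eU X (F i) y := by
  have h1 : ∀ i, eU X (F i) y = (F * Xm X y) i := fun i => by
    rw [eU_eq]; rfl
  simp_rw [h1]
  rw [← vecMul_eq_sum, Matrix.vecMul_vecMul, ← Matrix.mul_assoc, h, Matrix.one_mul, eU_eq]

theorem frame_const_low {F IF : Matrix (Fin 8) (Fin 8) ℂ} (h : IF * F = 1) (b : Fin 8 → ℂ)
    (y : ℂ) : eL X b y = ∑ i, (starRingEnd ℂ) ((b ᵥ* IF) i) • eL X (F i) y := by
  funext j
  rw [eL, frame_const h b, Finset.sum_apply, Finset.sum_apply, map_sum]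
  refine Finset.sum_congr rfl fun i _ => ?_
  simp [eL]

/-- up vector through the interval `q` into a low frame -/
theorem frame_strip (hX : IsX V X) {F IF : Matrix (Fin 8) (Fin 8) ℂ} (h : IF * F = 1)
    (b : Fin 8 → ℂ) {y : ℂ} (hy : 0 ≤ y.im) (hnc : NC y.re) :
    eU X b y = ∑ i, (b ᵥ* cj (Rf (qy y.re)) ᵥ* cj IF) i • eL X (F i) y := by
  have h1 : ∀ i, eL X (F i) y = (cj F * Lm X y) i := fun i => by
    rw [eL_eq]; rfl
  have h2 : cj IF * cj F = 1 := by rw [← cj_mul, h, cj_one]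
  simp_rw [h1]
  rw [← vecMul_eq_sum, Matrix.vecMul_vecMul, ← Matrix.mul_assoc, h2, Matrix.one_mul,
    Matrix.vecMul_vecMul, ← Xm_strip hX hy hnc, eU_eq]

/-- cusp vector -/
def eG (c : Fin 4) (r : Fin 8 → ℂ) (y : ℂ) : Fin 8 → ℂ := r ᵥ* Gm c y

/-- up vector in a cusp frame -/
theorem frame_cusp (hV : IsV V) (hX : IsX V X) (c : Fin 4) {M IM : Matrix (Fin 8) (Fin 8) ℂ}
    (h : IM * M = 1) (b : Fin 8 → ℂ) {y : ℂ} (hy : y ∈ RY c) (ht0 : tY c y ≠ 0) :
    eU X b y = ∑ m, (b ᵥ* Pm c (TY c y) (tY c y) ᵥ* IM) m • eG c (M m) y := by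
  have h1 : ∀ m, eG c (M m) y = (M * Gm c y) m := fun m => rfl
  simp_rw [h1]
  rw [← vecMul_eq_sum, Matrix.vecMul_vecMul, ← Matrix.mul_assoc, h, Matrix.one_mul,
    Matrix.vecMul_vecMul, ← Xm_cusp hV hX c hy ht0, eU_eq]

/-- cusp vector in an up frame -/
theorem frame_up (hV : IsV V) (hX : IsX V X) (c : Fin 4) {F IF : Matrix (Fin 8) (Fin 8) ℂ}
    (h : IF * F = 1) (r : Fin 8 → ℂ) {y : ℂ} (hy : y ∈ RY c) (ht0 : tY c y ≠ 0) :
    eG c r y = ∑ i, (r ᵥ* Qm c (TY c y) (tY c y) ᵥ* IF) i • eU X (F i) y := by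
  have h1 : ∀ i, eU X (F i) y = (F * Xm X y) i := fun i => by
    rw [eU_eq]; rfl
  simp_rw [h1]
  rw [← vecMul_eq_sum, Matrix.vecMul_vecMul, ← Matrix.mul_assoc, h, Matrix.one_mul,
    Matrix.vecMul_vecMul, ← Gm_cusp hV hX c hy ht0]
  rfl

end

end Vale.Agent.P030.H552
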