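import Mathlib

/-! Pigeonhole: a shift of the grid that is far from finitely many points. -/

open Finset

namespace Vale.Agent.P030.H552

/-- Among the `M+1` shifts `(2k+1) η`, `k ≤ M`, one is at distance `≥ η` from at most `M` values. -/
theorem exists_shift (S : Finset ℝ) (M : ℕ) (hM : S.card ≤ M) {η : ℝ} (hη : 0 < η) :
    ∃ t : ℝ, η ≤ t ∧ t ≤ (2 * M + 1) * η ∧ ∀ c ∈ S, η ≤ |c - t| := by
  by_contra hcon
  push Not at hcon
  have key : ∀ k ∈ range (M + 1), ∃ c ∈ S, |c - (2 * (k : ℝ) + 1) * η| < η := by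
    intro k hk
    have hk' : (k : ℝ) ≤ M := by
      have : k ≤ M := by simpa [Nat.lt_succ_iff] using hk
      exact_mod_cast this
    apply hcon
    · nlinarith [show (0 : ℝ) ≤ k from Nat.cast_nonneg k]
    · nlinarith
  choose! f hf hf' using key
  have hinj : Set.InjOn f (range (M + 1) : Set ℕ) := by
    intro k hk l hl hkl
    have h1 := abs_lt.mp (hf' k hk)
    have h2 := abs_lt.mp (hf' l hl)
    rw [hkl] at h1
    have h3 : (k : ℝ) < l + 1 := by
      by_contra h
      push Not at h
      nlinarith [h1.1, h1.2, h2.1, h2.2]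
    have h4 : (l : ℝ) < k + 1 := by
      by_contra h
      push Not at h
      nlinarith [h1.1, h1.2, h2.1, h2.2]
    have h3' : k < l + 1 := by exact_mod_cast h3
    have h4' : l < k + 1 := by exact_mod_cast h4
    omega
  have hcard := Finset.card_le_card_of_injOn f (fun k hk => hf k hk) hinj
  rw [card_range] at hcard
  omega

/-- Simultaneous shift of a finite grid: for at most `K` points there is a shift `t ∈ [0, δ]` such
that all points have real part at distance `≥ η` from all `x i + t` and imaginary part at distance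
`≥ η` from all `y j + t`. -/
theorem exists_grid_shift {P Q K : ℕ} (x : Fin P → ℝ) (y : Fin Q → ℝ) (A : Finset ℂ)
    (hA : A.card ≤ K) {δ η : ℝ} (hη : 0 < η) (hδ : (2 * (K * (P + Q)) + 1) * η ≤ δ) :
    ∃ t : ℝ, 0 ≤ t ∧ t ≤ δ ∧
      (∀ a ∈ A, ∀ i, η ≤ |a.re - (x i + t)|) ∧ (∀ a ∈ A, ∀ j, η ≤ |a.im - (y j + t)|) := by
  classical
  let S : Finset ℝ := ((A ×ˢ (univ : Finset (Fin P))).image (fun z => z.1.re - x z.2)) ∪
    ((A ×ˢ (univ : Finset (Fin Q))).image (fun z => z.1.im - y z.2))
  have hS : S.card ≤ K * (P + Q) := by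
    calc S.card ≤ _ + _ := card_union_le _ _
      _ ≤ (A ×ˢ (univ : Finset (Fin P))).card + (A ×ˢ (univ : Finset (Fin Q))).card :=
          Nat.add_le_add card_image_le card_image_le
      _ = A.card * (P + Q) := by simp [card_product]; ring
      _ ≤ K * (P + Q) := Nat.mul_le_mul_right _ hA
  obtain ⟨t, ht0, ht1, ht⟩ := exists_shift S (K * (P + Q)) hS hη
  refine ⟨t, by linarith, ?_, ?_, ?_⟩
  · refine ht1.trans (le_trans ?_ hδ)
    push_cast
    exact le_rfl
  · intro a ha i
    have := ht (a.re - x i) (mem_union_left _ (mem_image.mpr ⟨(a, i), by simp [ha], rfl⟩))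
    rwa [show a.re - (x i + t) = a.re - x i - t by ring]
  · intro a ha j
    have := ht (a.im - y j) (mem_union_right _ (mem_image.mpr ⟨(a, j), by simp [ha], rfl⟩))
    rwa [show a.im - (y j + t) = a.im - y j - t by ring]

/-- distance from the lines implies distance from every point of the lines -/
theorem norm_sub_ge_of_re {a z : ℂ} {η c : ℝ} (hz : z.re = c) (h : η ≤ |a.re - c|) :
    η ≤ ‖z - a‖ := by
  have h1 := Complex.abs_re_le_norm (z - a)
  rw [Complex.sub_re, hz, abs_sub_comm] at h1
  linarith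

theorem norm_sub_ge_of_im {a z : ℂ} {η c : ℝ} (hz : z.im = c) (h : η ≤ |a.im - c|) :
    η ≤ ‖z - a‖ := by
  have h1 := Complex.abs_im_le_norm (z - a)
  rw [Complex.sub_im, hz, abs_sub_comm] at h1
  linarith

end Vale.Agent.P030.H552
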