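import Vale.Agent.P030.AR.Vec

/-!
# P030, route H, row H4 (1): the global vectors in the `y`-plane, with strips

`u = (y+1)/(y-1)` : the upper half plane of `u` is the lower half plane of `y`;
`c0 : y = -1`, `c1 : y = 0`, `c2 : y = 1`, `c3 : y = ∞`.

`IsX V X` : `X i y j` is analytic on `Om` (the lower half plane and everything above the four real
intervals), equal to `V` on the lower half plane, and on the closed upper half plane
`X i y = Σ k, conj (Rf q i k) * conj (X k (conj y))`, `q` = the interval below `y`.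
-/

open Complex Set Filter Topology Matrix

namespace Vale.Agent.P030.H552

open Vale.Agent.P030.AR

noncomputable section

/-- the chart -/
def uy (y : ℂ) : ℂ := (y + 1) / (y - 1)

theorem uy_im (y : ℂ) : (uy y).im = -2 * y.im / normSq (y - 1) := by
  rw [uy, div_eq_mul_inv, Complex.inv_def]
  simp only [mul_im, add_re, add_im, one_re, one_im, mul_re, conj_re, conj_im, sub_re, sub_im,
    ofReal_re, ofReal_im]
  ring

theorem uy_re (y : ℂ) : (uy y).re = (normSq y - 1) / normSq (y - 1) := by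
  rw [uy, div_eq_mul_inv, Complex.inv_def]
  simp only [mul_im, add_re, add_im, one_re, one_im, mul_re, conj_re, conj_im, sub_re, sub_im,
    ofReal_re, ofReal_im, normSq_apply]
  ring

theorem uy_conj (y : ℂ) : uy ((starRingEnd ℂ) y) = (starRingEnd ℂ) (uy y) := by
  simp [uy, map_div₀]

theorem normSq_pos' {y : ℂ} (h : y ≠ 1) : 0 < normSq (y - 1) := normSq_pos.2 (sub_ne_zero.2 h)

theorem uy_up {y : ℂ} (h : y.im < 0) : uy y ∈ Up := by
  have h1 : y ≠ 1 := by rintro rfl; simp at h
  have h2 := normSq_pos' h1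
  change 0 < (uy y).im
  rw [uy_im]
  apply div_pos _ h2
  linarith

theorem uy_im_neg {y : ℂ} (h : 0 < y.im) : (uy y).im < 0 := by
  have h1 : y ≠ 1 := by rintro rfl; simp at h
  have h2 := normSq_pos' h1
  rw [uy_im]
  apply div_neg_of_neg_of_pos _ h2
  linarith

theorem differentiableAt_uy {y : ℂ} (h : y ≠ 1) : DifferentiableAt ℂ uy y := by
  unfold uy
  exact (differentiableAt_id.add_const _).div (differentiableAt_id.sub_const _) (sub_ne_zero.2 h)

/-- the interval (index as in `AR.Iv`) containing the real number `x` of the `y`-line -/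
def qy (x : ℝ) : Fin 4 := if x < -1 then 2 else if x < 0 then 1 else if x < 1 then 0 else 3

/-- no cusp -/
def NC (x : ℝ) : Prop := x ≠ -1 ∧ x ≠ 0 ∧ x ≠ 1

theorem isOpen_NC : IsOpen {x : ℝ | NC x} := by
  have : {x : ℝ | NC x} = ({-1} : Set ℝ)ᶜ ∩ (({0} : Set ℝ)ᶜ ∩ ({1} : Set ℝ)ᶜ) := by
    ext x; simp [NC]
  rw [this]
  exact isOpen_compl_singleton.inter (isOpen_compl_singleton.inter isOpen_compl_singleton)

/-- the domain -/
def Om : Set ℂ := {y | y.im < 0 ∨ NC y.re}

theorem isOpen_Om : IsOpen Om := by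
  have : Om = {y : ℂ | y.im < 0} ∪ (re ⁻¹' {x | NC x}) := rfl
  rw [this]
  exact (isOpen_lt continuous_im continuous_const).union (isOpen_NC.preimage continuous_re)

theorem ne_one_of_Om {y : ℂ} (h : y ∈ Om) : y ≠ 1 := by
  rintro rfl
  rcases h with h | h
  · simp at h
  · exact h.2.2 rfl

/-- `qy` is locally constant off the cusps -/
theorem qy_eventually {x : ℝ} (h : NC x) : ∀ᶠ x' in 𝓝 x, qy x' = qy x := by
  obtain ⟨h1, h2, h3⟩ := h
  rcases lt_or_gt_of_ne h1 with a | a
  · filter_upwards [Iio_mem_nhds a] with x' hx'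
    simp only [mem_Iio] at hx'
    simp [qy, a, hx']
  rcases lt_or_gt_of_ne h2 with b | b
  · filter_upwards [Ioo_mem_nhds a b] with x' hx'
    simp [qy, not_lt.2 a.le, not_lt.2 hx'.1.le, b, hx'.2]
  rcases lt_or_gt_of_ne h3 with c | c
  · filter_upwards [Ioo_mem_nhds b c] with x' hx'
    have e1 : ¬ x' < -1 := by have := hx'.1; linarith
    have e2 : ¬ x < -1 := by linarith
    simp [qy, e1, e2, not_lt.2 b.le, not_lt.2 hx'.1.le, c, hx'.2]
  · filter_upwards [Ioi_mem_nhds c] with x' hx'
    simp only [mem_Ioi] at hx'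
    have e1 : ¬ x' < -1 := by linarith
    have e2 : ¬ x < -1 := by linarith
    have e3 : ¬ x' < 0 := by linarith
    simp [qy, e1, e2, not_lt.2 b.le, e3, not_lt.2 c.le, not_lt.2 hx'.le]

/-- a real point of the interval `q` -/
theorem uy_mem_OmI {y : ℂ} (h : NC y.re) : uy y ∈ OmI (qy y.re) := by
  intro him
  have hy1 : y ≠ 1 := by rintro rfl; exact h.2.2 rfl
  have hn := normSq_pos' hy1
  rw [uy_im] at him
  have hy : y.im = 0 := by
    rcases div_eq_zero_iff.1 him with h' | h'
    · linarith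
    · exact absurd h' hn.ne'
  have hr : (uy y).re = (y.re + 1) / (y.re - 1) := by
    rw [uy_re]
    have e : y.re - 1 ≠ 0 := sub_ne_zero.2 h.2.2
    have e1 : normSq y = y.re * y.re := by simp [normSq_apply, hy]
    have e2 : normSq (y - 1) = (y.re - 1) * (y.re - 1) := by simp [normSq_apply, hy]
    rw [e1, e2]
    field_simp
    ring
  rw [hr]
  obtain ⟨h1, h2, h3⟩ := h
  rcases lt_or_gt_of_ne h1 with a | a
  · have e : qy y.re = 2 := by simp [qy, a]
    rw [e]
    change (y.re + 1) / (y.re - 1) ∈ Ioo (0 : ℝ) 1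
    have d : y.re - 1 < 0 := by linarith
    constructor
    · apply div_pos_of_neg_of_neg <;> linarith
    · rw [div_lt_one_of_neg d]; linarith
  rcases lt_or_gt_of_ne h2 with b | b
  · have e : qy y.re = 1 := by simp [qy, not_lt.2 a.le, b]
    rw [e]
    change (y.re + 1) / (y.re - 1) ∈ Ioo (-1 : ℝ) 0
    have d : y.re - 1 < 0 := by linarith
    constructor
    · rw [lt_div_iff_of_neg d]; linarith
    · apply div_neg_of_pos_of_neg <;> linarith
  rcases lt_or_gt_of_ne h3 with c | c
  · have e : qy y.re = 0 := by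
      have e2 : ¬ y.re < -1 := by linarith
      simp [qy, e2, not_lt.2 b.le, c]
    rw [e]
    change (y.re + 1) / (y.re - 1) ∈ Iio (-1 : ℝ)
    have d : y.re - 1 < 0 := by linarith
    rw [mem_Iio, div_lt_iff_of_neg d]; linarith
  · have e : qy y.re = 3 := by
      have e2 : ¬ y.re < -1 := by linarith
      simp [qy, e2, not_lt.2 b.le, not_lt.2 c.le]
    rw [e]
    change (y.re + 1) / (y.re - 1) ∈ Ioi (1 : ℝ)
    have d : 0 < y.re - 1 := by linarith
    rw [mem_Ioi, lt_div_iff₀ d]; linarith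

theorem isOpen_Iv (q : Fin 4) : IsOpen (Iv q) := by
  fin_cases q
  · exact isOpen_Iio
  · exact isOpen_Ioo
  · exact isOpen_Ioo
  · exact isOpen_Ioi

theorem isOpen_OmI (q : Fin 4) : IsOpen (OmI q) := by
  have : OmI q = {u : ℂ | u.im = 0}ᶜ ∪ re ⁻¹' (Iv q) := by
    ext u; simp [OmI, imp_iff_not_or]
  rw [this]
  exact ((isClosed_eq continuous_im continuous_const).isOpen_compl).union
    ((isOpen_Iv q).preimage continuous_re)

/-- the vectors in the `y`-plane -/
structure IsX (V : Fin 8 → ℂ → Fin 8 → ℂ) (X : Fin 8 → ℂ → Fin 8 → ℂ) : Prop where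
  ana : ∀ y ∈ Om, ∀ i j, AnalyticAt ℂ (fun y => X i y j) y
  up : ∀ i, ∀ y : ℂ, y.im < 0 → X i y = V i (uy y)
  low : ∀ i, ∀ y : ℂ, 0 ≤ y.im → NC y.re → ∀ j,
    X i y j = ∑ k, (starRingEnd ℂ) (Rf (qy y.re) i k) * (starRingEnd ℂ) (X k ((starRingEnd ℂ) y) j)

theorem exists_X (hR : RefV) {V : Fin 8 → ℂ → Fin 8 → ℂ} (hV : IsV V) : ∃ X, IsX V X := by
  choose W hW using hR V hV
  let X : Fin 8 → ℂ → Fin 8 → ℂ := fun i y => W (qy y.re) i (uy y)
  have hup : ∀ i, ∀ y : ℂ, y.im < 0 → X i y = V i (uy y) := fun i y hy =>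
    (hW _).up i _ (uy_up hy)
  have hana : ∀ y ∈ Om, ∀ i j, AnalyticAt ℂ (fun y => X i y j) y := by
    intro y hy i j
    rcases hy with hy | hy
    · have hd : DifferentiableOn ℂ (fun y => V i (uy y) j) {y : ℂ | y.im < 0} := by
        intro z hz
        have hz1 : z ≠ 1 := by rintro rfl; simp at hz
        have hUo : IsOpen Up := isOpen_lt continuous_const continuous_im
        have h1 : DifferentiableAt ℂ (fun u => V i u j) (uy z) :=
          (hV.hol i j).differentiableAt (hUo.mem_nhds (uy_up hz))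
        exact (h1.comp z (differentiableAt_uy hz1)).differentiableWithinAt
      have ho : IsOpen {y : ℂ | y.im < 0} := isOpen_lt continuous_im continuous_const
      have := hd.analyticAt (ho.mem_nhds hy)
      refine this.congr ?_
      filter_upwards [ho.mem_nhds hy] with z hz
      rw [hup i z hz]
    · have hd : DifferentiableOn ℂ (fun z => W (qy y.re) i (uy z) j)
          {z : ℂ | NC z.re ∧ qy z.re = qy y.re} := by
        intro z hz
        have hz1 : z ≠ 1 := by rintro rfl; exact hz.1.2.2 rfl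
        have hm : uy z ∈ OmI (qy y.re) := hz.2 ▸ uy_mem_OmI hz.1
        have h1 : DifferentiableAt ℂ (fun u => W (qy y.re) i u j) (uy z) :=
          ((hW (qy y.re)).hol i j).differentiableAt ((isOpen_OmI _).mem_nhds hm)
        exact (h1.comp z (differentiableAt_uy hz1)).differentiableWithinAt
      have hmem : {z : ℂ | NC z.re ∧ qy z.re = qy y.re} ∈ 𝓝 y := by
        have h1 : ∀ᶠ z in 𝓝 y, NC z.re := continuous_re.continuousAt.eventually
          (isOpen_NC.mem_nhds hy)
        have h2 : ∀ᶠ z in 𝓝 y, qy z.re = qy y.re :=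
          continuous_re.continuousAt.eventually (qy_eventually hy)
        exact h1.and h2
      have := hd.analyticAt hmem
      refine this.congr ?_
      filter_upwards [hmem] with z hz
      simp only [X, hz.2]
  refine ⟨X, hana, hup, ?_⟩
  intro i y hy hnc j
  rcases hy.lt_or_eq with hy | hy
  · have h1 := (hW (qy y.re)).low i (uy y) (uy_im_neg hy) j
    change W (qy y.re) i (uy y) j = _
    rw [h1]
    refine Finset.sum_congr rfl fun k _ => ?_
    rw [hup k ((starRingEnd ℂ) y) (by simpa using hy), uy_conj]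
  · -- the real points : continuity
    set F : ℂ → ℂ := fun z => X i z j with hF
    set G : ℂ → ℂ := fun z => ∑ k, (starRingEnd ℂ) (Rf (qy y.re) i k) *
      (starRingEnd ℂ) (X k ((starRingEnd ℂ) z) j) with hG
    have hcy : (starRingEnd ℂ) y = y := by
      rw [Complex.conj_eq_iff_im]; exact hy.symm
    have hFc : ContinuousAt F y := (hana y (Or.inr hnc) i j).continuousAt
    have hGc : ContinuousAt G y := by
      refine tendsto_finsetSum _ fun k _ => ?_
      refine Tendsto.mul tendsto_const_nhds ?_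
      refine (Complex.continuous_conj.continuousAt).tendsto.comp ?_
      have h1 : ContinuousAt (fun z => X k z j) ((starRingEnd ℂ) y) := by
        rw [hcy]; exact (hana y (Or.inr hnc) k j).continuousAt
      exact h1.tendsto.comp Complex.continuous_conj.continuousAt
    -- approach from above
    set w : ℕ → ℂ := fun n => y + (1 / ((n : ℝ) + 1) : ℝ) * I with hw
    have hwt : Tendsto w atTop (𝓝 y) := by
      have h1 : Tendsto (fun n : ℕ => (1 / ((n : ℝ) + 1) : ℝ)) atTop (𝓝 0) :=
        tendsto_one_div_add_atTop_nhds_zero_nat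
      have h2 : Tendsto (fun n : ℕ => y + ((1 / ((n : ℝ) + 1) : ℝ) : ℂ) * I) atTop
          (𝓝 (y + ((0 : ℝ) : ℂ) * I)) :=
        tendsto_const_nhds.add (((continuous_ofReal.tendsto _).comp h1).mul tendsto_const_nhds)
      have h3 : y + ((0 : ℝ) : ℂ) * I = y := by simp
      rw [h3] at h2
      exact h2
    have hre : ∀ n, (w n).re = y.re := fun n => by simp [hw]
    have him : ∀ n, 0 < (w n).im := fun n => by
      have : (w n).im = 1 / ((n : ℝ) + 1) := by
        simp only [hw, add_im, ← hy, zero_add, mul_im, ofReal_re, I_im, mul_one, ofReal_im,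
          I_re, mul_zero, add_zero]
      rw [this]; positivity
    have heq : ∀ n, F (w n) = G (w n) := fun n => by
      have h1 := (hW (qy (w n).re)).low i (uy (w n)) (uy_im_neg (him n)) j
      change W (qy (w n).re) i (uy (w n)) j = _
      rw [h1]
      simp only [hG, hre]
      refine Finset.sum_congr rfl fun k _ => ?_
      rw [hup k ((starRingEnd ℂ) (w n)) (by simpa using him n), uy_conj]
    have t1 : Tendsto (fun n => F (w n)) atTop (𝓝 (F y)) := hFc.tendsto.comp hwt
    have t2 : Tendsto (fun n => G (w n)) atTop (𝓝 (G y)) := hGc.tendsto.comp hwt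
    exact tendsto_nhds_unique (t1.congr heq) t2

/-! ### frames -/

/-- the vectors with coordinates the rows of `B`, lower half plane of `y` (`= Up`) -/
def eU (X : Fin 8 → ℂ → Fin 8 → ℂ) (b : Fin 8 → ℂ) (y : ℂ) : Fin 8 → ℂ := fun j => ∑ k, b k * X k y j

/-- their conjugates, upper half plane of `y` -/
def eL (X : Fin 8 → ℂ → Fin 8 → ℂ) (b : Fin 8 → ℂ) (y : ℂ) : Fin 8 → ℂ := fun j =>
  (starRingEnd ℂ) (eU X b ((starRingEnd ℂ) y) j)

variable {V X : Fin 8 → ℂ → Fin 8 → ℂ}

theorem analyticAt_eU (hX : IsX V X) (b : Fin 8 → ℂ) {y : ℂ} (hy : y ∈ Om) (j : Fin 8) :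
    AnalyticAt ℂ (fun y => eU X b y j) y := by
  unfold eU
  exact Finset.analyticAt_fun_sum _ fun k _ => analyticAt_const.mul (hX.ana y hy k j)

/-- `conj ∘ f ∘ conj` is analytic -/
theorem analyticAt_conj_conj {f : ℂ → ℂ} {y : ℂ} (hf : AnalyticAt ℂ f ((starRingEnd ℂ) y)) :
    AnalyticAt ℂ (fun z => (starRingEnd ℂ) (f ((starRingEnd ℂ) z))) y := by
  obtain ⟨s, hs, hd⟩ := hf.eventually_analyticAt.exists_mem
  obtain ⟨t, hts, hto, hyt⟩ := mem_nhds_iff.1 hs
  have ho : IsOpen ((starRingEnd ℂ) ⁻¹' t) := hto.preimage Complex.continuous_conj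
  have hD : DifferentiableOn ℂ (fun z => (starRingEnd ℂ) (f ((starRingEnd ℂ) z)))
      ((starRingEnd ℂ) ⁻¹' t) := by
    intro z hz
    have h1 : DifferentiableAt ℂ f ((starRingEnd ℂ) z) := (hd _ (hts hz)).differentiableAt
    have := h1.hasDerivAt.conj_conj
    rw [Complex.conj_conj] at this
    exact this.differentiableAt.differentiableWithinAt
  exact hD.analyticAt (ho.mem_nhds hyt)

theorem analyticAt_eL (hX : IsX V X) (b : Fin 8 → ℂ) {y : ℂ} (hy : (starRingEnd ℂ) y ∈ Om)
    (j : Fin 8) : AnalyticAt ℂ (fun y => eL X b y j) y :=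
  analyticAt_conj_conj (analyticAt_eU hX b hy j)

/-- **strip relation** : an up vector at a point of the closed upper half plane in terms of a low
frame -/
theorem rel_strip_up (hX : IsX V X) (b : Fin 8 → ℂ) (B : Fin 8 → Fin 8 → ℂ) (m : Fin 8 → ℂ)
    {y : ℂ} (hy : 0 ≤ y.im) (hnc : NC y.re)
    (hm : ∀ k, ∑ i, m i * (starRingEnd ℂ) (B i k) =
      ∑ i, b i * (starRingEnd ℂ) (Rf (qy y.re) i k)) (j : Fin 8) :
    eU X b y j = ∑ i, m i * eL X (B i) y j := by
  have h1 : eU X b y j = ∑ k, (∑ i, b i * (starRingEnd ℂ) (Rf (qy y.re) i k)) *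
      (starRingEnd ℂ) (X k ((starRingEnd ℂ) y) j) := by
    unfold eU
    simp_rw [Finset.sum_mul]
    rw [Finset.sum_comm]
    refine Finset.sum_congr rfl fun i _ => ?_
    rw [hX.low i y hy hnc j, Finset.mul_sum]
    refine Finset.sum_congr rfl fun k _ => ?_
    ring
  rw [h1]
  simp_rw [← hm, Finset.sum_mul]
  rw [Finset.sum_comm]
  refine Finset.sum_congr rfl fun i _ => ?_
  simp only [eL, eU, map_sum, map_mul, Finset.mul_sum]
  refine Finset.sum_congr rfl fun k _ => ?_
  ring

/-- mirror image -/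
theorem rel_strip_low (hX : IsX V X) (b : Fin 8 → ℂ) (B : Fin 8 → Fin 8 → ℂ) (m : Fin 8 → ℂ)
    {y : ℂ} (hy : y.im ≤ 0) (hnc : NC y.re)
    (hm : ∀ k, ∑ i, m i * (starRingEnd ℂ) (B i k) =
      ∑ i, b i * (starRingEnd ℂ) (Rf (qy y.re) i k)) (j : Fin 8) :
    eL X b y j = ∑ i, (starRingEnd ℂ) (m i) * eU X (B i) y j := by
  have h := rel_strip_up hX b B m (y := (starRingEnd ℂ) y) (by simpa using hy) (by simpa using hnc)
    (by simpa using hm) j
  have h2 := congrArg (starRingEnd ℂ) h
  rw [eL, h2, map_sum]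
  refine Finset.sum_congr rfl fun i _ => ?_
  rw [map_mul]
  simp [eL]

/-- constant change of frame -/
theorem rel_const (b : Fin 8 → ℂ) (B : Fin 8 → Fin 8 → ℂ) (m : Fin 8 → ℂ) (y : ℂ)
    (hm : ∀ k, ∑ i, m i * B i k = b k) (j : Fin 8) :
    eU X b y j = ∑ i, m i * eU X (B i) y j := by
  unfold eU
  simp_rw [← hm, Finset.sum_mul, Finset.mul_sum]
  rw [Finset.sum_comm]
  refine Finset.sum_congr rfl fun i _ => Finset.sum_congr rfl fun k _ => ?_
  ring

theorem rel_const_low (b : Fin 8 → ℂ) (B : Fin 8 → Fin 8 → ℂ) (m : Fin 8 → ℂ) (y : ℂ)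
    (hm : ∀ k, ∑ i, m i * B i k = b k) (j : Fin 8) :
    eL X b y j = ∑ i, (starRingEnd ℂ) (m i) * eL X (B i) y j := by
  rw [eL, rel_const b B m _ hm j, map_sum]
  refine Finset.sum_congr rfl fun i _ => ?_
  rw [map_mul]; rfl

end

end Vale.Agent.P030.H552
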