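import Vale.Agent.P030.H552.Cells
import Vale.Agent.P030.H205.FrameTop
import Vale.Agent.P030.H60.ExV
import Vale.Agent.P030.H225.RefV

/-!
# P030, route H: the archimedean estimate from a table of cells

`stAF_of_cells` : a table `D : CD α β` which satisfies the obligations `CD.Ok` (finitely many
explicit coefficient rows and inequalities between potentials on curves), with `κ g` = the regular
parts of the potentials at the cusps, gives `StAF` with the value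
`4 D0² log 2 - (Σ h_g (κ g - lam) + Σ o_i² log R_i) / 2`.  The analytic input (the global vectors,
their reflections, the frame at `c3`) is proved elsewhere.
-/

open Finset Matrix PowerSeries

namespace Vale.Agent.P030.H552

open Vale.Agent.P030.T Vale.Agent.P030.AR Vale.Agent.P030.H676
open Vale.Agent.P030.H181 (GM GY GF DY gf0 gf1)
open Vale.Agent.P030.H352 (tl yt outv Fam)
open Vale.P030.H205 (MG)

/-- the cusp vector at `c3` is the row of the frame -/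
theorem GM_eq_outv (M : Matrix (Fin 8) (Fin 8) ℂ) (m : Fin 8) {y : ℂ} (hy : 1 < ‖y‖) :
    GM 3 (M m) y = outv (MG M) m y := by
  funext j
  rw [Vale.P030.H205.outv_MG M m j hy]
  unfold GM
  refine Finset.sum_congr rfl fun i _ => ?_
  have h1 : GY 3 i y j = evq (gf0 3 i j) (H181.tc 3 y) + xc * evq (gf1 3 i j) (H181.tc 3 y) := rfl
  have h2 : gf1 3 i = 0 := by unfold gf1; rw [if_neg]; rintro ⟨h, -⟩; exact absurd h (by decide)
  have h3 : H181.tc 3 y = y⁻¹ := by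
    change 1 / y = y⁻¹
    rw [one_div]
  rw [h1, h2, h3]
  have h4 : evq ((0 : Fin 8 → ℚ⟦X⟧) j) y⁻¹ = 0 := evq_zero _
  rw [h4, mul_zero, add_zero]
  rfl

variable {α β : Type}

/-- every group of `c0, c1, c2` is read off from a disc member of the table -/
def CD.Rd (D : CD α β) (ht : Gp → ℕ) (rk : Gp → ℕ) (κ : Gp → ℝ) : Prop :=
  ∀ g : Gp, ¬ g.cusp = 3 → 0 < ht g → ∃ (m : Fin 8) (y0 : ℂ), D.fl g.cusp m = true ∧
    y0 ∈ D.Kc g.cusp m ∧ tl g.cusp y0 = 0 ∧ D.hc g.cusp m = ht g ∧ D.wt g.cusp m g = 1 ∧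
    D.reg g.cusp m y0 ≤ κ g ∧
    ∀ g', D.wt g.cusp m g' ≠ 0 → g' ≠ g → ht g < ht g' ∨ (ht g = ht g' ∧ rk g' < rk g)

theorem CD.reads {D : CD α β} {ht rk : Gp → ℕ} {κ : Gp → ℝ} (h : D.Rd ht rk κ)
    (X : Fin 8 → ℂ → Fin 8 → ℂ) : Reads (D.toFam X) ht rk κ := by
  intro g hg h0
  obtain ⟨m, y0, h1, h2, h3, h4, h5, h6, h7⟩ := h g hg h0
  have e1 : (D.toFam X).cu (.inr (.inr (g.cusp, m))) = g.cusp := if_pos h1
  refine ⟨.inr (.inr (g.cusp, m)), y0, ?_, h2, ?_, h4, h5, h6, h7⟩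
  · rw [e1]; exact hg
  · rw [e1]; exact h3

/-- **route H, final form** -/
theorem stAF_of_cells {P : Par} (c0 : ℕ) (hcard : ∑ g : Gp, P.ht g = 8 * P.D0)
    (hlt : ∀ g : Gp, g.cusp = 3 → P.ht g < P.D0) [Fintype α] [Fintype β] (D : CD α β)
    {R : Fin 8 → ℝ} {lam δ : ℝ} (hδ : 0 < δ) (hR : ∀ i, 3 ≤ R i)
    (hD : D.Ok P.ht (MG (D.M 3)) R lam δ)
    (h0 : ∀ j, D.M 3 0 j = if j = 0 then 1 else 0) (h1 : ∀ j, D.M 3 1 j = if j = 1 then 1 else 0)
    (h2 : ∀ j, D.M 3 2 j = if j = 2 then 1 else 0)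
    (rk : Gp → ℕ) (κ : Gp → ℝ) (hrd : D.Rd P.ht rk κ) :
    StAF P c0 (4 * (P.D0 : ℝ) ^ 2 * Real.log 2
      - (∑ g ∈ univ.filter (fun g : Gp => ¬ g.cusp = 3), P.ht g * (κ g - lam)
          + ∑ i, oo P i ^ 2 * Real.log (R i)) / 2) := by
  obtain ⟨V, hV⟩ := H60.ExV.existsV
  obtain ⟨X, hX⟩ := exists_X H225.refV hV
  obtain ⟨C, hC⟩ := CD.good hV hX hD
  have hdet : (D.M 3).det ≠ 0 := by
    intro h
    have := congrArg Matrix.det (hD.hIM 3)
    rw [Matrix.det_mul, h, mul_zero, Matrix.det_one] at this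
    exact zero_ne_one this
  exact stAF_of_fam c0 hcard hlt (D.toFam X) hδ hC
    (Vale.P030.H205.frameAt (D.M 3) hdet h0 h1 h2 hR) rk κ (CD.reads hrd X)

end Vale.Agent.P030.H552
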